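import Vale.Agent.P181.R.InjA

/-! Two elements of the group algebra realising the injection.

PLAN.  idem_mul_single, single_mul_idem: reindex sumH by multiplication with h; idem_mul_idem follows.
asAlgebraHom_idem: `map_smul`, `map_sum`, `Representation.asAlgebraHom_single`.
exists_elems: let λ be the left regular representation of G on MonoidAlgebra ℂ G (g acts by
`LinearMap.mulLeft ℂ (single g 1)`), M H the subrepresentation {x | x * idem H = x}.  An intertwining
map f : M H → τ satisfies f (z * x) = τ.asAlgebraHom z (f x) (induction on z), so f ↦ f (idem H) is a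
linear equivalence onto fixS τ H (inverse: v ↦ (x ↦ τ.asAlgebraHom x v)).  exists_inj gives an injective
s : M H₁ → M H₂; a complement of its range (exists_compl) gives an intertwining r with r ∘ s = id.
Take c = s (idem H₁), a = r (idem H₂): c * a = r (c * idem H₂) = r c = idem H₁ and
idem H₂ * a = r (idem H₂ * idem H₂) = a. -/

namespace Vale.Agent.P181.R

open MvPolynomial Equiv

variable {G : Type} [Group G] [Fintype G]

namespace InjB

theorem sumH_mul_right {M : Type*} [AddCommMonoid M] (H : Subgroup G) {h : G} (hh : h ∈ H)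
    (F : G → M) : sumH H (fun g => F (g * h)) = sumH H F := by
  classical
  unfold sumH
  refine Finset.sum_nbij' (fun g => g * h) (fun g => g * h⁻¹) ?_ ?_ ?_ ?_ ?_
  · intro g hg
    simp only [Finset.mem_filter, Finset.mem_univ, true_and] at hg ⊢
    exact H.mul_mem hg hh
  · intro g hg
    simp only [Finset.mem_filter, Finset.mem_univ, true_and] at hg ⊢
    exact H.mul_mem hg (H.inv_mem hh)
  · intro g _
    group
  · intro g _
    group
  · intro g _
    rfl

theorem sumH_mul_left {M : Type*} [AddCommMonoid M] (H : Subgroup G) {h : G} (hh : h ∈ H)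
    (F : G → M) : sumH H (fun g => F (h * g)) = sumH H F := by
  classical
  unfold sumH
  refine Finset.sum_nbij' (fun g => h * g) (fun g => h⁻¹ * g) ?_ ?_ ?_ ?_ ?_
  · intro g hg
    simp only [Finset.mem_filter, Finset.mem_univ, true_and] at hg ⊢
    exact H.mul_mem hh hg
  · intro g hg
    simp only [Finset.mem_filter, Finset.mem_univ, true_and] at hg ⊢
    exact H.mul_mem (H.inv_mem hh) hg
  · intro g _
    group
  · intro g _
    group
  · intro g _
    rfl

theorem avg_const {M : Type*} [AddCommGroup M] [Module ℂ M] (H : Subgroup G) (F : G → M) (v : M)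
    (hF : ∀ h ∈ H, F h = v) : (Nat.card H : ℂ)⁻¹ • sumH H F = v := by
  classical
  unfold sumH
  rw [Finset.sum_congr rfl fun g hg => hF g (Finset.mem_filter.1 hg).2, Finset.sum_const,
    ← Nat.cast_smul_eq_nsmul ℂ, smul_smul, Nat.card_eq_fintype_card, Fintype.card_subtype,
    inv_mul_cancel₀, one_smul]
  exact Nat.cast_ne_zero.2 (Finset.card_ne_zero.2 ⟨1, by simp⟩)

theorem sumH_mul {M : Type*} [Semiring M] (H : Subgroup G) (F : G → M) (x : M) :
    sumH H F * x = sumH H fun g => F g * x := by
  unfold sumH
  rw [Finset.sum_mul]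

theorem mul_sumH {M : Type*} [Semiring M] (H : Subgroup G) (F : G → M) (x : M) :
    x * sumH H F = sumH H fun g => x * F g := by
  unfold sumH
  rw [Finset.mul_sum]

end InjB

theorem idem_mul_single (H : Subgroup G) {h : G} (hh : h ∈ H) :
    idem H * MonoidAlgebra.single h 1 = idem H := by
  unfold idem
  rw [smul_mul_assoc, InjB.sumH_mul]
  simp only [MonoidAlgebra.single_mul_single, mul_one]
  rw [InjB.sumH_mul_right H hh fun g => MonoidAlgebra.single g (1 : ℂ)]

theorem single_mul_idem (H : Subgroup G) {h : G} (hh : h ∈ H) :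
    MonoidAlgebra.single h 1 * idem H = idem H := by
  unfold idem
  rw [mul_smul_comm, InjB.mul_sumH]
  simp only [MonoidAlgebra.single_mul_single, mul_one]
  rw [InjB.sumH_mul_left H hh fun g => MonoidAlgebra.single g (1 : ℂ)]

theorem idem_mul_idem (H : Subgroup G) : idem H * idem H = idem H := by
  have h : idem H * ((Nat.card H : ℂ)⁻¹ • sumH H fun g => MonoidAlgebra.single g 1) = idem H := by
    rw [mul_smul_comm, InjB.mul_sumH]
    exact InjB.avg_const H _ _ fun _ hh => idem_mul_single H hh
  exact h

theorem asAlgebraHom_idem {V : Type*} [AddCommGroup V] [Module ℂ V] (ρ : Representation ℂ G V)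
    (H : Subgroup G) (v : V) :
    ρ.asAlgebraHom (idem H) v = (Nat.card H : ℂ)⁻¹ • sumH H fun h => ρ h v := by
  unfold idem sumH
  rw [map_smul, map_sum, LinearMap.smul_apply, LinearMap.sum_apply]
  simp only [Representation.asAlgebraHom_single_one]

namespace InjB

open Representation

omit [Fintype G] in
theorem lr_apply (g : G) (x : MonoidAlgebra ℂ G) :
    leftRegular ℂ G g x = MonoidAlgebra.single g 1 * x := by
  rw [← asAlgebraHom_single_one, asAlgebraHom_ofMulAction_smul_eq_mul]

/-- The left ideal generated by the idempotent. -/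
noncomputable def M (H : Subgroup G) : Subrepresentation (leftRegular ℂ G) where
  toSubmodule :=
    { carrier := {x | x * idem H = x}
      add_mem' := fun {x y} hx hy => by
        change (x + y) * idem H = x + y
        rw [add_mul, hx, hy]
      zero_mem' := zero_mul _
      smul_mem' := fun c x hx => by
        change (c • x) * idem H = c • x
        rw [smul_mul_assoc, hx] }
  apply_mem_toSubmodule g x hx := by
    change leftRegular ℂ G g x * idem H = leftRegular ℂ G g x
    rw [lr_apply, mul_assoc, hx]

theorem mul_mem (H : Subgroup G) (z : MonoidAlgebra ℂ G) (x : (M H).toSubmodule) :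
    z * (x : MonoidAlgebra ℂ G) ∈ (M H).toSubmodule := by
  change z * (x : MonoidAlgebra ℂ G) * idem H = z * x
  rw [mul_assoc, show (x : MonoidAlgebra ℂ G) * idem H = x from x.2]

/-- The generator. -/
noncomputable def gen (H : Subgroup G) : (M H).toSubmodule := ⟨idem H, idem_mul_idem H⟩

omit [Fintype G] in
theorem map_alg {V W : Type*} [AddCommGroup V] [Module ℂ V] [AddCommGroup W] [Module ℂ W]
    {ρ : Representation ℂ G V} {τ : Representation ℂ G W} (f : IntertwiningMap ρ τ)
    (z : MonoidAlgebra ℂ G) (v : V) : f (ρ.asAlgebraHom z v) = τ.asAlgebraHom z (f v) := by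
  induction z using MonoidAlgebra.induction_linear with
  | zero => simp
  | add x y hx hy => simp only [map_add, LinearMap.add_apply, hx, hy]
  | single g a =>
    simp only [asAlgebraHom_single, LinearMap.smul_apply, map_smul]
    rw [IntertwiningMap.isIntertwining]

theorem coe_alg (H : Subgroup G) (z : MonoidAlgebra ℂ G) (x : (M H).toSubmodule) :
    (((M H).toRepresentation.asAlgebraHom z x : (M H).toSubmodule) : MonoidAlgebra ℂ G) =
      z * x :=
  (map_alg (InjA.incl (M H)) z x).trans (asAlgebraHom_ofMulAction_smul_eq_mul z x)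

theorem alg_gen (H : Subgroup G) (x : (M H).toSubmodule) :
    (M H).toRepresentation.asAlgebraHom (x : MonoidAlgebra ℂ G) (gen H) = x :=
  Subtype.ext ((coe_alg H _ _).trans x.2)

theorem rk_eq (H : Subgroup G) {X : Type} [AddCommGroup X] [Module ℂ X]
    (τ : Representation ℂ G X) :
    Module.finrank ℂ (IntertwiningMap (M H).toRepresentation τ) = Module.finrank ℂ (fixS τ H) := by
  let φ : IntertwiningMap (M H).toRepresentation τ →ₗ[ℂ] fixS τ H :=
    { toFun := fun f => ⟨f (gen H), mem_fixS.2 fun h hh => by
        rw [← IntertwiningMap.isIntertwining]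
        congr 1
        exact Subtype.ext ((lr_apply h (idem H)).trans (single_mul_idem H hh))⟩
      map_add' := fun _ _ => rfl
      map_smul' := fun _ _ => rfl }
  refine (LinearEquiv.ofBijective φ ⟨(injective_iff_map_eq_zero φ).2 fun f hf => ?_,
    fun v => ?_⟩).finrank_eq
  · have h0 : f (gen H) = 0 := congrArg Subtype.val hf
    refine IntertwiningMap.ext (LinearMap.ext fun x => ?_)
    change f x = 0
    rw [← alg_gen H x, map_alg, h0, map_zero]
  · let l : (M H).toSubmodule →ₗ[ℂ] X :=
      { toFun := fun x => τ.asAlgebraHom (x : MonoidAlgebra ℂ G) v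
        map_add' := fun x y => by simp
        map_smul' := fun c x => by simp }
    refine ⟨LinearMap.intertwiningMap_of_isIntertwiningMap _ _ l fun g x => ?_, Subtype.ext ?_⟩
    · change τ.asAlgebraHom (leftRegular ℂ G g x) v = τ g (τ.asAlgebraHom (x : MonoidAlgebra ℂ G) v)
      rw [lr_apply, map_mul, asAlgebraHom_single_one]
      rfl
    · change τ.asAlgebraHom (idem H) v = v
      rw [asAlgebraHom_idem]
      exact avg_const H _ _ fun h hh => mem_fixS.1 v.2 h hh

theorem exists_retr {V W : Type} [AddCommGroup V] [Module ℂ V] [FiniteDimensional ℂ V]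
    [AddCommGroup W] [Module ℂ W] [FiniteDimensional ℂ W]
    {ρ : Representation ℂ G V} {σ : Representation ℂ G W} (s : IntertwiningMap ρ σ)
    (hs : Function.Injective s) : ∃ r : IntertwiningMap σ ρ, ∀ v, r (s v) = v := by
  obtain ⟨T', hT⟩ := exists_compl (IntertwiningMap.range _ _ s)
  let e : ρ.Equiv (IntertwiningMap.range ρ σ s).toRepresentation :=
    Representation.Equiv.mk (LinearEquiv.ofInjective s.toLinearMap hs) fun g => by
      ext v
      exact IntertwiningMap.isIntertwining ρ σ s g v
  obtain ⟨r, hl, -⟩ := InjA.glue hT e.symm.toIntertwiningMap 0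
  exact ⟨r, fun v => (hl (e v)).trans (e.symm_apply_apply v)⟩

end InjB

theorem exists_elems (H₁ H₂ : Subgroup G)
    (h : ∀ (X : Type) [AddCommGroup X] [Module ℂ X] [FiniteDimensional ℂ X]
      (τ : Representation ℂ G X), τ.IsIrreducible →
      Module.finrank ℂ (fixS τ H₁) ≤ Module.finrank ℂ (fixS τ H₂)) :
    ∃ a c : MonoidAlgebra ℂ G, idem H₂ * a = a ∧ c * a = idem H₁ := by
  obtain ⟨s, hs⟩ := exists_inj (InjB.M H₁).toRepresentation (InjB.M H₂).toRepresentation
    fun X _ _ _ τ hτ => by
      rw [InjB.rk_eq, InjB.rk_eq]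
      exact h X τ hτ
  obtain ⟨r, hr⟩ := InjB.exists_retr s hs
  have key : ∀ x : (InjB.M H₂).toSubmodule,
      (x : MonoidAlgebra ℂ G) * (r (InjB.gen H₂) : MonoidAlgebra ℂ G) = r x := fun x => by
    rw [← InjB.coe_alg, ← InjB.map_alg, InjB.alg_gen]
  refine ⟨r (InjB.gen H₂), s (InjB.gen H₁), key (InjB.gen H₂), ?_⟩
  rw [key, hr]
  rfl

end Vale.Agent.P181.R
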