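import Vale.Agent.P181.R.Wre
import Vale.Agent.P181.R.InjB
import Vale.Agent.P181.Bridge2

/-! From the group algebra to an equivariant injection of plethysms.

PLAN.  Work in the commutative ring S = (Ω → Module.Dual ℂ V) → ℂ with the action frep Ω (Dual ℂ V).
For p : Ω let evp p : V →ₗ S be v ↦ (ξ ↦ ξ p v) (`LinearMap.pi`), and
κ e = permMap (fun i => permMap (fun j => evp (e.symm (i, j)))) (Bridge1).  For u : Ω → V let
P u = ∏ p, evp p (u p), T₀ = span of all P u; frep g (P u) = P (u ∘ g⁻¹), so T₀ is stable under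
asAlgebraHom.  κ e (tprod i, tprod j, v i j) = sumH (wr e) (fun h => frep h (P (fun p => v (e p).1
(e p).2))) (permMap_tprod, `Finset.prod_univ_sum`, sumH_wr) = card (wr e) • asAlgebraHom (idem (wr e))
(P _).  Hence range (κ e) = T₀.map (asAlgebraHom (idem (wr e))) (sym_sym_ext / span_of_span), and
asAlgebraHom (idem (wr e)) fixes range (κ e) (idem_mul_idem).  κ e is injective: evaluating at
ξ p = ζ (e p).1 gives (d !) ^ a • theta ℂ V a d (theta_injective).  For g : V →ₗ V the map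
D g : S →ₗ S, F ↦ (ξ ↦ F (fun p => ξ p ∘ₗ g)), commutes with frep and κ e ∘ symMap a (symMap d g) =
D g ∘ κ e.  Put Ψ = (κ e').leftInverse ∘ asAlgebraHom x ∘ κ e; κ e' ∘ Ψ = asAlgebraHom x ∘ κ e by h1;
asAlgebraHom c ∘ κ e' ∘ Ψ = κ e by h2 gives injectivity, injectivity of κ e' gives equivariance. -/

namespace Vale.Agent.P181.R

open MvPolynomial Equiv

open SymmetricPower

variable {Ω : Type} [Fintype Ω] [DecidableEq Ω] {a d a' d' : ℕ}

namespace Brg

variable {V : Type*} [AddCommGroup V] [Module ℂ V]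

/-- evaluation at a position -/
def evp (V : Type*) [AddCommGroup V] [Module ℂ V] {Ω : Type} (p : Ω) :
    V →ₗ[ℂ] ((Ω → Module.Dual ℂ V) → ℂ) := LinearMap.pi fun ξ => ξ p

/-- the embedding of the plethysm in the tensor space -/
noncomputable def kap (V : Type*) [AddCommGroup V] [Module ℂ V] {Ω : Type}
    (e : Ω ≃ Fin a × Fin d) : SymmetricPower ℂ (Fin a) (SymmetricPower ℂ (Fin d) V) →ₗ[ℂ]
      ((Ω → Module.Dual ℂ V) → ℂ) :=
  permMap fun i => permMap fun j => evp V (e.symm (i, j))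

/-- pure tensors -/
def PP (u : Ω → V) : (Ω → Module.Dual ℂ V) → ℂ := fun ξ => ∏ p, ξ p (u p)

omit [DecidableEq Ω] in
theorem frep_PP (g : Perm Ω) (u : Ω → V) :
    frep Ω (Module.Dual ℂ V) g (PP u) = PP (u ∘ ⇑g⁻¹) := by
  funext ξ
  simp only [frep_apply, PP, Function.comp_apply]
  rw [← Equiv.prod_comp g fun p => ξ p (u (g⁻¹ p))]
  simp

omit [Fintype Ω] [DecidableEq Ω] in
theorem kap_apply (e : Ω ≃ Fin a × Fin d) (v : Fin a → Fin d → V) (ξ : Ω → Module.Dual ℂ V) :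
    kap V e (tprod ℂ fun i => tprod ℂ fun j => v i j) ξ =
      ∑ σ : Perm (Fin a), ∏ i, ∑ τ : Perm (Fin d), ∏ j, ξ (e.symm (σ i, τ j)) (v i j) := by
  simp [kap, evp]

theorem kap_tprod (e : Ω ≃ Fin a × Fin d) (hd : 0 < d) (v : Fin a → Fin d → V) :
    kap V e (tprod ℂ fun i => tprod ℂ fun j => v i j) =
      (Nat.card (wr e) : ℂ) • (frep Ω (Module.Dual ℂ V)).asAlgebraHom (idem (wr e))
        (PP fun p => v (e p).1 (e p).2) := by
  have hc : (Nat.card (wr e) : ℂ) ≠ 0 := Nat.cast_ne_zero.2 Nat.card_pos.ne'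
  rw [asAlgebraHom_idem, smul_smul, mul_inv_cancel₀ hc, one_smul, sumH_wr e hd]
  funext ξ
  rw [kap_apply]
  simp only [Finset.sum_apply]
  refine Finset.sum_congr rfl fun σ _ => ?_
  rw [Finset.prod_univ_sum, Fintype.piFinset_univ]
  refine Finset.sum_congr rfl fun τ _ => ?_
  simp only [frep_apply, PP, Function.comp_apply]
  rw [← Equiv.prod_comp e.symm, Fintype.prod_prod_type]
  simp only [shear_apply, Equiv.apply_symm_apply]

/-- the span of the pure tensors -/
def T0 (Ω : Type) [Fintype Ω] (V : Type*) [AddCommGroup V] [Module ℂ V] :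
    Submodule ℂ ((Ω → Module.Dual ℂ V) → ℂ) := Submodule.span ℂ (Set.range (PP (Ω := Ω) (V := V)))

omit [DecidableEq Ω] in
theorem frep_mem (g : Perm Ω) {F : (Ω → Module.Dual ℂ V) → ℂ} (hF : F ∈ T0 Ω V) :
    frep Ω (Module.Dual ℂ V) g F ∈ T0 Ω V := by
  have : T0 Ω V ≤ (T0 Ω V).comap (frep Ω (Module.Dual ℂ V) g) := by
    refine Submodule.span_le.2 ?_
    rintro _ ⟨u, rfl⟩
    change frep Ω (Module.Dual ℂ V) g (PP u) ∈ T0 Ω V
    rw [frep_PP]
    exact Submodule.subset_span ⟨_, rfl⟩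
  exact this hF

omit [DecidableEq Ω] in
theorem alg_mem (z : MonoidAlgebra ℂ (Perm Ω)) {F : (Ω → Module.Dual ℂ V) → ℂ} (hF : F ∈ T0 Ω V) :
    (frep Ω (Module.Dual ℂ V)).asAlgebraHom z F ∈ T0 Ω V := by
  induction z using MonoidAlgebra.induction_on with
  | of g =>
    rw [Representation.asAlgebraHom_of]
    exact frep_mem g hF
  | add f g hf hg =>
    rw [map_add, LinearMap.add_apply]
    exact add_mem hf hg
  | smul r f hf =>
    rw [map_smul, LinearMap.smul_apply]
    exact Submodule.smul_mem _ r hf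

theorem idem_mem_range (e : Ω ≃ Fin a × Fin d) (hd : 0 < d) {F : (Ω → Module.Dual ℂ V) → ℂ}
    (hF : F ∈ T0 Ω V) :
    (frep Ω (Module.Dual ℂ V)).asAlgebraHom (idem (wr e)) F ∈ LinearMap.range (kap V e) := by
  have hc : (Nat.card (wr e) : ℂ) ≠ 0 := Nat.cast_ne_zero.2 Nat.card_pos.ne'
  have : T0 Ω V ≤ (LinearMap.range (kap V e)).comap
      ((frep Ω (Module.Dual ℂ V)).asAlgebraHom (idem (wr e))) := by
    refine Submodule.span_le.2 ?_
    rintro _ ⟨u, rfl⟩
    refine ⟨(Nat.card (wr e) : ℂ)⁻¹ • tprod ℂ fun i => tprod ℂ fun j => u (e.symm (i, j)), ?_⟩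
    rw [map_smul, kap_tprod e hd, smul_smul, inv_mul_cancel₀ hc, one_smul]
    simp
  exact this hF

theorem kap_mem (e : Ω ≃ Fin a × Fin d) (hd : 0 < d)
    (y : SymmetricPower ℂ (Fin a) (SymmetricPower ℂ (Fin d) V)) : kap V e y ∈ T0 Ω V := by
  have : (T0 Ω V).mkQ ∘ₗ kap V e = 0 := by
    refine sym_sym_ext fun v => ?_
    rw [LinearMap.comp_apply, LinearMap.zero_apply, Submodule.mkQ_apply,
      Submodule.Quotient.mk_eq_zero, kap_tprod e hd]
    exact Submodule.smul_mem _ _ (alg_mem _ (Submodule.subset_span ⟨_, rfl⟩))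
  have h := DFunLike.congr_fun this y
  rwa [LinearMap.comp_apply, LinearMap.zero_apply, Submodule.mkQ_apply,
    Submodule.Quotient.mk_eq_zero] at h

theorem idem_kap (e : Ω ≃ Fin a × Fin d) (hd : 0 < d)
    (y : SymmetricPower ℂ (Fin a) (SymmetricPower ℂ (Fin d) V)) :
    (frep Ω (Module.Dual ℂ V)).asAlgebraHom (idem (wr e)) (kap V e y) = kap V e y := by
  have : (frep Ω (Module.Dual ℂ V)).asAlgebraHom (idem (wr e)) ∘ₗ kap V e = kap V e := by
    refine sym_sym_ext fun v => ?_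
    rw [LinearMap.comp_apply, kap_tprod e hd, map_smul, ← Module.End.mul_apply, ← map_mul,
      idem_mul_idem]
  exact DFunLike.congr_fun this y

omit [Fintype Ω] [DecidableEq Ω] in
theorem kap_ker [FiniteDimensional ℂ V] (e : Ω ≃ Fin a × Fin d) : LinearMap.ker (kap V e) = ⊥ := by
  have h : LinearMap.funLeft ℂ ℂ (fun (ζ : Fin a → Module.Dual ℂ V) (p : Ω) => ζ (e p).1) ∘ₗ
      kap V e = ((d.factorial : ℂ) ^ a) • theta ℂ V a d := by
    refine sym_sym_ext fun v => ?_
    funext ζ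
    rw [LinearMap.comp_apply, LinearMap.funLeft_apply, kap_apply]
    simp [theta, Finset.prod_mul_distrib, Fintype.card_perm, Finset.mul_sum]
  rw [LinearMap.ker_eq_bot']
  intro y hy
  have h1 := DFunLike.congr_fun h y
  rw [LinearMap.comp_apply, hy, map_zero, LinearMap.smul_apply] at h1
  have hf : ((d.factorial : ℂ) ^ a) ≠ 0 := pow_ne_zero _ (by exact_mod_cast d.factorial_ne_zero)
  exact LinearMap.ker_eq_bot'.1 (theta_injective a d) y ((smul_eq_zero.1 h1.symm).resolve_left hf)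

/-- the action of an endomorphism of `V` -/
def DD (Ω : Type) (g : V →ₗ[ℂ] V) :
    ((Ω → Module.Dual ℂ V) → ℂ) →ₗ[ℂ] ((Ω → Module.Dual ℂ V) → ℂ) :=
  LinearMap.funLeft ℂ ℂ fun (ξ : Ω → Module.Dual ℂ V) (p : Ω) => ξ p ∘ₗ g

omit [Fintype Ω] [DecidableEq Ω] in
theorem kap_symMap (e : Ω ≃ Fin a × Fin d) (g : V →ₗ[ℂ] V)
    (y : SymmetricPower ℂ (Fin a) (SymmetricPower ℂ (Fin d) V)) :
    kap V e (symMap a (symMap d g) y) = DD Ω g (kap V e y) := by
  have : kap V e ∘ₗ symMap a (symMap d g) = DD Ω g ∘ₗ kap V e := by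
    refine sym_sym_ext fun v => ?_
    funext ξ
    simp only [LinearMap.comp_apply, symMap_tprod, DD, LinearMap.funLeft_apply, kap_apply]
  exact DFunLike.congr_fun this y

omit [Fintype Ω] [DecidableEq Ω] in
theorem alg_DD (z : MonoidAlgebra ℂ (Perm Ω)) (g : V →ₗ[ℂ] V) (F : (Ω → Module.Dual ℂ V) → ℂ) :
    (frep Ω (Module.Dual ℂ V)).asAlgebraHom z (DD Ω g F) =
      DD Ω g ((frep Ω (Module.Dual ℂ V)).asAlgebraHom z F) := by
  induction z using MonoidAlgebra.induction_on with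
  | of h =>
    rw [Representation.asAlgebraHom_of]
    rfl
  | add f k hf hk => rw [map_add, LinearMap.add_apply, LinearMap.add_apply, map_add, hf, hk]
  | smul r f hf => rw [map_smul, LinearMap.smul_apply, LinearMap.smul_apply, map_smul, hf]

end Brg

open Brg in
theorem exists_equivariant (e : Ω ≃ Fin a × Fin d) (e' : Ω ≃ Fin a' × Fin d') (hd : 0 < d)
    (hd' : 0 < d') (x c : MonoidAlgebra ℂ (Perm Ω)) (h1 : idem (wr e') * x = x)
    (h2 : c * x = idem (wr e)) (V : Type*) [AddCommGroup V] [Module ℂ V] [FiniteDimensional ℂ V] :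
    ∃ Ψ : SymmetricPower ℂ (Fin a) (SymmetricPower ℂ (Fin d) V) →ₗ[ℂ]
        SymmetricPower ℂ (Fin a') (SymmetricPower ℂ (Fin d') V),
      Function.Injective Ψ ∧ ∀ g : V →ₗ[ℂ] V,
        Ψ ∘ₗ symMap a (symMap d g) = symMap a' (symMap d' g) ∘ₗ Ψ := by
  have key : ∀ y, kap V e' (((kap V e').leftInverse ∘ₗ
      (frep Ω (Module.Dual ℂ V)).asAlgebraHom x ∘ₗ kap V e) y) =
      (frep Ω (Module.Dual ℂ V)).asAlgebraHom x (kap V e y) := by
    intro y
    obtain ⟨z, hz⟩ := idem_mem_range e' hd' (alg_mem x (kap_mem e hd y))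
    rw [← Module.End.mul_apply, ← map_mul, h1] at hz
    rw [LinearMap.comp_apply, LinearMap.comp_apply, ← hz,
      LinearMap.leftInverse_apply_of_inj (kap_ker e')]
  refine ⟨(kap V e').leftInverse ∘ₗ (frep Ω (Module.Dual ℂ V)).asAlgebraHom x ∘ₗ kap V e, ?_,
    fun g => ?_⟩
  · rw [← LinearMap.ker_eq_bot, LinearMap.ker_eq_bot']
    intro y hy
    have h3 := key y
    rw [hy, map_zero] at h3
    have h4 := idem_kap e hd y
    rw [← h2, map_mul, Module.End.mul_apply, ← h3, map_zero] at h4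
    exact LinearMap.ker_eq_bot'.1 (kap_ker e) y h4.symm
  · refine LinearMap.ext fun y => LinearMap.ker_eq_bot.1 (kap_ker e') ?_
    rw [LinearMap.comp_apply, key, LinearMap.comp_apply (symMap a' (symMap d' g)), kap_symMap e',
      key, kap_symMap, alg_DD]

end Vale.Agent.P181.R
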