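import Vale.Agent.P181.R.Defs

/-! Elementary character theory of a finite group over the complex numbers.

PLAN.  `Representation.card_inv_mul_sum_char_mul_char_eq_finrank`, `char_orthonormal`, `char_iso`,
`card_inv_mul_sum_char_eq_finrank` (for ρ.comp H.subtype; `Finset.sum_subtype`), with
`invertibleOfNonzero`.  exists_compl: `IsSemisimpleRepresentation` (Maschke) gives a complement in the
lattice of subrepresentations (`toSubmodule_sup`, `toSubmodule_inf`), or average a projection.
char_add: trace of a map preserving both summands (`LinearMap.trace_prodMap'` through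
`Submodule.prodEquivOfIsCompl`, `LinearMap.trace_conj'`).  exists_irr_sub: a nonzero subrepresentation
of minimal dimension.  char_decomp: strong induction on finrank, generalising V.
irr_of_virt: an element of the closure is ∑ ψ ∈ s, c ψ • ψ with s a finset of irreducible characters
and c integer (e.g. χ = s₁.sum - s₂.sum for multisets, or `AddSubgroup.closure_induction` into
Finsupp ℤ); ip χ χ = ∑ c ψ ^ 2 = 1 forces exactly one nonzero coefficient, equal to ±1. -/

namespace Vale.Agent.P181.R

open MvPolynomial Equiv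

variable {G : Type} [Group G] [Fintype G]
variable {V W : Type} [AddCommGroup V] [Module ℂ V] [FiniteDimensional ℂ V]
  [AddCommGroup W] [Module ℂ W] [FiniteDimensional ℂ W]

/-- The scalar product as a bilinear map. -/
noncomputable def ipL (G : Type) [Group G] [Fintype G] : (G → ℂ) →ₗ[ℂ] (G → ℂ) →ₗ[ℂ] ℂ :=
  LinearMap.mk₂ ℂ ip
    (fun _ _ _ => by simp [ip, add_mul, Finset.sum_add_distrib, mul_add])
    (fun _ _ _ => by simp [ip, Finset.mul_sum, mul_assoc, mul_left_comm])
    (fun _ _ _ => by simp [ip, Finset.sum_add_distrib, mul_add])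
    (fun _ _ _ => by simp [ip, Finset.mul_sum, mul_left_comm])

theorem ipL_apply (χ ψ : G → ℂ) : ipL G χ ψ = ip χ ψ := rfl

theorem ip_comm (χ ψ : G → ℂ) : ip χ ψ = ip ψ χ := by
  unfold ip
  congr 1
  rw [← Equiv.sum_comp (Equiv.inv G)]
  exact Finset.sum_congr rfl fun g _ => by simp [mul_comm]

namespace Chr

theorem card_ne (H : Type) [Group H] [Finite H] : (Nat.card H : ℂ) ≠ 0 :=
  Nat.cast_ne_zero.2 Nat.card_pos.ne'

end Chr

theorem ip_char (ρ : Representation ℂ G V) (σ : Representation ℂ G W) :
    ip ρ.character σ.character = Module.finrank ℂ (Representation.IntertwiningMap σ ρ) := by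
  let _ := invertibleOfNonzero (Chr.card_ne G)
  exact Representation.card_inv_mul_sum_char_mul_char_eq_finrank σ ρ

open Classical in
theorem IsIrr.ip_eq {ψ ψ' : G → ℂ} (h : IsIrr ψ) (h' : IsIrr ψ') :
    ip ψ ψ' = if ψ = ψ' then 1 else 0 := by
  let _ := invertibleOfNonzero (Chr.card_ne G)
  obtain ⟨V, _, _, _, ρ, hρ, rfl⟩ := h
  obtain ⟨W, _, _, _, σ, hσ, rfl⟩ := h'
  split_ifs with e
  · rw [← e]
    have := Representation.char_orthonormal ρ ρ
    rw [if_pos ⟨Representation.Equiv.refl ρ⟩] at this
    exact this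
  · have := Representation.char_orthonormal ρ σ
    rw [if_neg fun ⟨φ⟩ => e (Representation.char_iso φ).symm] at this
    exact this

omit [FiniteDimensional ℂ V] in
theorem Chr.compl {ρ : Representation ℂ G V} (S : Subrepresentation ρ) :
    ∃ S' : Subrepresentation ρ, IsCompl S.toSubmodule S'.toSubmodule := by
  have : NeZero (Nat.card G : ℂ) := ⟨Chr.card_ne G⟩
  obtain ⟨S', h⟩ := exists_isCompl S
  refine ⟨S', ?_, ?_⟩
  · rw [disjoint_iff, ← Subrepresentation.toSubmodule_inf, h.inf_eq_bot]; rfl
  · rw [codisjoint_iff, ← Subrepresentation.toSubmodule_sup, h.sup_eq_top]; rfl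

theorem exists_compl {ρ : Representation ℂ G V} (S : Subrepresentation ρ) :
    ∃ S' : Subrepresentation ρ, IsCompl S.toSubmodule S'.toSubmodule := Chr.compl S

theorem char_add {ρ : Representation ℂ G V} {S S' : Subrepresentation ρ}
    (h : IsCompl S.toSubmodule S'.toSubmodule) :
    ρ.character = S.toRepresentation.character + S'.toRepresentation.character := by
  funext g
  simp only [Pi.add_apply, Representation.character]
  rw [← LinearMap.trace_prodMap',
    ← LinearMap.trace_conj' _ (Submodule.prodEquivOfIsCompl _ _ h)]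
  congr 1
  refine LinearMap.ext fun v => ?_
  obtain ⟨x, rfl⟩ := (Submodule.prodEquivOfIsCompl _ _ h).surjective v
  rw [LinearEquiv.conj_apply_apply, LinearEquiv.symm_apply_apply,
    Submodule.coe_prodEquivOfIsCompl', Submodule.coe_prodEquivOfIsCompl', map_add]
  rfl

theorem exists_irr_sub [Nontrivial V] (ρ : Representation ℂ G V) :
    ∃ S : Subrepresentation ρ, S.toRepresentation.IsIrreducible := by
  have hne : ∃ S : Subrepresentation ρ, S.toSubmodule ≠ ⊥ := ⟨⊤, (bot_ne_top (α := Submodule ℂ V)).symm⟩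
  obtain ⟨S, hS, hmin⟩ := (measure fun S : Subrepresentation ρ =>
    Module.finrank ℂ S.toSubmodule).wf.has_min {S | S.toSubmodule ≠ ⊥} hne
  have : Nontrivial S.toSubmodule := Submodule.nontrivial_iff_ne_bot.2 hS
  refine ⟨S, ?_⟩
  have : Nontrivial (Subrepresentation S.toRepresentation) :=
    ⟨⟨⊥, ⊤, fun e => bot_ne_top (α := Submodule ℂ S.toSubmodule)
      (congrArg Subrepresentation.toSubmodule e)⟩⟩
  refine ⟨fun T => ?_⟩
  by_cases hT : T.toSubmodule = ⊥
  · exact Or.inl (Subrepresentation.toSubmodule_injective hT)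
  · right
    let T' : Subrepresentation ρ := ⟨T.toSubmodule.map S.toSubmodule.subtype, by
      rintro g _ ⟨v, hv, rfl⟩
      exact ⟨_, T.apply_mem_toSubmodule g hv, rfl⟩⟩
    have h1 : T'.toSubmodule ≠ ⊥ := fun e => hT
      (Submodule.map_injective_of_injective S.toSubmodule.injective_subtype
        (e.trans (Submodule.map_bot _).symm))
    have h2 : ¬ Module.finrank ℂ T'.toSubmodule < Module.finrank ℂ S.toSubmodule := hmin T' h1
    have h3 : Module.finrank ℂ T'.toSubmodule = Module.finrank ℂ T.toSubmodule :=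
      Submodule.finrank_map_subtype_eq _ _
    exact Subrepresentation.toSubmodule_injective
      (Submodule.eq_top_of_finrank_eq (le_antisymm (Submodule.finrank_le _) (by omega)))

theorem Chr.decomp (d : ℕ) : ∀ (V : Type) [AddCommGroup V] [Module ℂ V] [FiniteDimensional ℂ V]
    (ρ : Representation ℂ G V), Module.finrank ℂ V = d →
    ∃ s : Multiset (G → ℂ), (∀ ψ ∈ s, IsIrr ψ) ∧ ρ.character = s.sum := by
  induction d using Nat.strong_induction_on with
  | _ d ih =>
    intro V _ _ _ ρ hd
    rcases subsingleton_or_nontrivial V with hV | hV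
    · refine ⟨0, by simp, ?_⟩
      funext g
      rw [Representation.character, Subsingleton.elim (ρ g) 0]
      simp
    · obtain ⟨S, hS⟩ := exists_irr_sub ρ
      obtain ⟨S', h⟩ := exists_compl S
      have hpos : 0 < Module.finrank ℂ S.toSubmodule := by
        rw [Module.finrank_pos_iff]
        by_contra hn
        rw [not_nontrivial_iff_subsingleton] at hn
        exact bot_ne_top (α := Subrepresentation S.toRepresentation)
          (Subrepresentation.toSubmodule_injective (Subsingleton.elim _ _))
      have hsum := Submodule.finrank_add_eq_of_isCompl h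
      obtain ⟨s, hs, e⟩ := ih _ (by omega) S'.toSubmodule S'.toRepresentation rfl
      refine ⟨S.toRepresentation.character ::ₘ s, ?_, by rw [char_add h, e, Multiset.sum_cons]⟩
      intro ψ hψ
      rcases Multiset.mem_cons.1 hψ with rfl | hψ
      · exact ⟨_, _, _, inferInstance, _, hS, rfl⟩
      · exact hs ψ hψ

theorem char_decomp (ρ : Representation ℂ G V) :
    ∃ s : Multiset (G → ℂ), (∀ ψ ∈ s, IsIrr ψ) ∧ ρ.character = s.sum :=
  Chr.decomp _ V ρ rfl

theorem char_mem_virt (ρ : Representation ℂ G V) : ρ.character ∈ virt G := by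
  obtain ⟨s, hs, e⟩ := char_decomp ρ
  rw [e]
  exact AddSubgroup.multiset_sum_mem _ _ fun ψ hψ => AddSubgroup.subset_closure (hs ψ hψ)

theorem irr_of_virt {χ : G → ℂ} (h : χ ∈ virt G) (h1 : ip χ χ = 1) : IsIrr χ ∨ IsIrr (-χ) := by
  classical
  have h' : χ ∈ Submodule.span ℤ {ψ : G → ℂ | IsIrr ψ} := by
    rw [← Submodule.mem_toAddSubgroup, Submodule.span_int_eq_addSubgroupClosure]
    exact h
  obtain ⟨c, hc, e⟩ := Submodule.mem_span_set.1 h'
  have e' : χ = ∑ ψ ∈ c.support, (c ψ : ℂ) • ψ := by
    rw [← e, Finsupp.sum]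
    exact Finset.sum_congr rfl fun ψ _ => (Int.cast_smul_eq_zsmul ℂ _ _).symm
  have h2 : ip χ χ = ((∑ ψ ∈ c.support, c ψ ^ 2 : ℤ) : ℂ) := by
    rw [← ipL_apply]
    conv_lhs => rw [e']
    simp only [map_sum, map_smul, LinearMap.sum_apply, LinearMap.smul_apply, ipL_apply]
    push_cast
    refine Finset.sum_congr rfl fun ψ hψ => ?_
    rw [Finset.sum_eq_single ψ]
    · rw [IsIrr.ip_eq (hc hψ) (hc hψ), if_pos rfl]
      simp [sq]
    · intro φ hφ hne
      rw [IsIrr.ip_eq (hc hφ) (hc hψ), if_neg hne, smul_zero]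
    · intro hn; exact absurd hψ hn
  have h3 : ∑ ψ ∈ c.support, c ψ ^ 2 = 1 := by
    rw [h1] at h2
    exact_mod_cast h2.symm
  have h4 : (c.support.card : ℤ) ≤ 1 := by
    rw [← h3, Finset.card_eq_sum_ones]
    push_cast
    refine Finset.sum_le_sum fun ψ hψ => ?_
    have := Finsupp.mem_support_iff.1 hψ
    exact Int.add_one_le_of_lt (a := 0) (by positivity)
  have h5 : c.support.card = 1 := by
    rcases Nat.eq_zero_or_pos c.support.card with h0 | h0
    · rw [Finset.card_eq_zero.1 h0] at h3
      simp at h3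
    · omega
  obtain ⟨ψ, hψ⟩ := Finset.card_eq_one.1 h5
  have hi : IsIrr ψ := hc (by rw [hψ]; simp)
  rw [hψ, Finset.sum_singleton] at h3 e'
  rcases mul_self_eq_one_iff.1 ((sq _).symm.trans h3) with h6 | h6
  · left; rw [e', h6]; simpa using hi
  · right; rw [e', h6]; simpa using hi

theorem sumH_char (ρ : Representation ℂ G V) (H : Subgroup G) :
    sumH H ρ.character = (Nat.card H : ℂ) * Module.finrank ℂ (fixS ρ H) := by
  classical
  let _ := invertibleOfNonzero (Chr.card_ne H)
  have := Representation.card_inv_mul_sum_char_eq_finrank (G := H) (ρ.comp H.subtype)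
  rw [fixS, ← this, mul_inv_cancel_left₀ (Chr.card_ne H), sumH,
    Finset.sum_subtype (p := (· ∈ H)) (F := inferInstance) _ (by simp)]
  rfl

end Vale.Agent.P181.R
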