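import Vale.Agent.P181.S.Defs

/-! Definitions for the representation theory of the sixth case of the Foulkes conjecture:
words, their permutation representation, cycle-index polynomials, characters. -/

namespace Vale.Agent.P181.R

open MvPolynomial Equiv

section Sym

variable {n : ℕ}

/-- Coefficient at an integer exponent vector, zero when an entry is negative. -/
noncomputable def coeffZ (γ : Fin n → ℤ) (f : MvPolynomial (Fin n) ℤ) : ℤ :=
  open Classical in if ∀ i, 0 ≤ γ i then coeff (fs fun i => (γ i).toNat) f else 0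

/-- The vector `l + ρ - σ ρ`. -/
def sh (l : Fin n → ℕ) (σ : Perm (Fin n)) : Fin n → ℤ :=
  fun i => (l i : ℤ) - (i : ℕ) + (σ i : ℕ)

/-- Partitions of `N` with at most `n` rows. -/
noncomputable def par (n N : ℕ) : Finset (Fin n → ℕ) :=
  open Classical in (Finset.piAntidiag Finset.univ N).filter Antitone

theorem mem_par {N : ℕ} {l : Fin n → ℕ} : l ∈ par n N ↔ Antitone l ∧ ∑ i, l i = N := by
  simp [par, and_comm]

/-- `mult` as a linear functional. -/
noncomputable def multL (n : ℕ) (l : Fin n → ℕ) : MvPolynomial (Fin n) ℤ →ₗ[ℤ] ℤ :=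
  lcoeff ℤ (fs (l + rho n)) ∘ₗ LinearMap.mulLeft ℤ (alt n (rho n))

theorem multL_apply (l : Fin n → ℕ) (f : MvPolynomial (Fin n) ℤ) : multL n l f = mult n f l := rfl

@[simp] theorem fs_apply (ν : Fin n → ℕ) (i : Fin n) : fs ν i = ν i := rfl

theorem fs_coe (β : Fin n →₀ ℕ) : fs (⇑β) = β := by
  ext i
  rfl

theorem fs_add (ν μ : Fin n → ℕ) : fs (ν + μ) = fs ν + fs μ := by
  ext i
  rfl

theorem fs_injective : Function.Injective (fs : (Fin n → ℕ) → _) :=
  Finsupp.equivFunOnFinite.symm.injective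

end Sym

section Char

variable {G : Type} [Group G] [Fintype G]

/-- The scalar product of class functions. -/
noncomputable def ip (χ ψ : G → ℂ) : ℂ := (Nat.card G : ℂ)⁻¹ * ∑ g, χ g * ψ g⁻¹

/-- Irreducible complex characters. -/
def IsIrr {G : Type} [Group G] (ψ : G → ℂ) : Prop :=
  ∃ (V : Type) (_ : AddCommGroup V) (_ : Module ℂ V) (_ : FiniteDimensional ℂ V)
    (ρ : Representation ℂ G V), ρ.IsIrreducible ∧ ψ = ρ.character

/-- Virtual characters. -/
def virt (G : Type) [Group G] : AddSubgroup (G → ℂ) := AddSubgroup.closure {ψ | IsIrr ψ}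

/-- Vectors fixed by a subgroup. -/
noncomputable def fixS {G : Type} [Group G] {V : Type*} [AddCommGroup V] [Module ℂ V] (ρ : Representation ℂ G V) (H : Subgroup G) :
    Submodule ℂ V := Representation.invariants (ρ.comp H.subtype)

omit [Fintype G] in
theorem mem_fixS {V : Type*} [AddCommGroup V] [Module ℂ V] {ρ : Representation ℂ G V}
    {H : Subgroup G} {v : V} : v ∈ fixS ρ H ↔ ∀ h ∈ H, ρ h v = v :=
  ⟨fun hv h hh => hv ⟨h, hh⟩, fun hv h => hv h.1 h.2⟩

/-- Sum of a function over a subgroup. -/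
noncomputable def sumH {M : Type*} [AddCommMonoid M] (H : Subgroup G) (F : G → M) : M :=
  open Classical in ∑ g ∈ Finset.univ.filter (· ∈ H), F g

/-- The averaging idempotent of a subgroup in the group algebra. -/
noncomputable def idem (H : Subgroup G) : MonoidAlgebra ℂ G :=
  (Nat.card H : ℂ)⁻¹ • sumH H fun g => MonoidAlgebra.single g 1

end Char

section Word

variable {Ω : Type} [Fintype Ω] [DecidableEq Ω] {n : ℕ}

/-- Permutations of the positions act on functions of words. -/
def frep (Ω : Type) (A : Type*) : Representation ℂ (Perm Ω) ((Ω → A) → ℂ) where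
  toFun g := LinearMap.funLeft ℂ ℂ fun w : Ω → A => w ∘ g
  map_one' := rfl
  map_mul' _ _ := rfl

@[simp] theorem frep_apply {Ω : Type} {A : Type*} (g : Perm Ω) (v : (Ω → A) → ℂ) (w : Ω → A) :
    frep Ω A g v w = v (w ∘ g) := rfl

/-- The content of a word: how many times each letter occurs. -/
noncomputable def cont (w : Ω → Fin n) : Fin n →₀ ℕ := ∑ a, Finsupp.single (w a) 1

omit [DecidableEq Ω] in
theorem cont_comp (w : Ω → Fin n) (g : Perm Ω) : cont (w ∘ g) = cont w :=
  Equiv.sum_comp g fun a => Finsupp.single (w a) 1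

/-- The power-sum polynomial of a permutation: the sum of the monomials of its fixed words. -/
noncomputable def pg (n : ℕ) (g : Perm Ω) : MvPolynomial (Fin n) ℤ :=
  ∑ w ∈ Finset.univ.filter (fun w : Ω → Fin n => w ∘ g = w), monomial (cont w) 1

/-- The stabiliser of a word. -/
def stab {Ω : Type} {A : Type*} (w : Ω → A) : Subgroup (Perm Ω) where
  carrier := {g | w ∘ g = w}
  one_mem' := rfl
  mul_mem' {g h} hg hh := by
    change (w ∘ g) ∘ h = w
    rw [hg, hh]
  inv_mem' {g} hg := by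
    change w ∘ ⇑g⁻¹ = w
    conv_lhs => rw [← show w ∘ g = w from hg]
    funext a
    simp

theorem mem_stab {Ω : Type} {A : Type*} {w : Ω → A} {g : Perm Ω} : g ∈ stab w ↔ w ∘ g = w :=
  Iff.rfl

/-- The permutation character of the words of content `β`. -/
noncomputable def xi (Ω : Type) [Fintype Ω] [DecidableEq Ω] (β : Fin n →₀ ℕ) (g : Perm Ω) : ℂ :=
  (coeff β (pg n g) : ℤ)

/-- The Frobenius character attached to `l`. -/
noncomputable def chi (Ω : Type) [Fintype Ω] [DecidableEq Ω] (l : Fin n → ℕ) (g : Perm Ω) : ℂ :=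
  (mult n (pg n g) l : ℤ)

/-- Functions supported on the words of content `β`. -/
def Wsub (Ω : Type) [Fintype Ω] (β : Fin n →₀ ℕ) : Subrepresentation (frep Ω (Fin n)) where
  toSubmodule :=
    { carrier := {v | ∀ w, cont w ≠ β → v w = 0}
      add_mem' := fun {u v} hu hv w hw => by simp [hu w hw, hv w hw]
      zero_mem' := fun _ _ => rfl
      smul_mem' := fun c v hv w hw => by simp [hv w hw] }
  apply_mem_toSubmodule g v hv w hw := hv _ (by rwa [cont_comp])

theorem mem_Wsub {Ω : Type} [Fintype Ω] {β : Fin n →₀ ℕ} {v : (Ω → Fin n) → ℂ} :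
    v ∈ (Wsub Ω β).toSubmodule ↔ ∀ w, cont w ≠ β → v w = 0 := Iff.rfl

theorem sumH_conj {M : Type*} [AddCommMonoid M] {A : Type*} (w : Ω → A) (g : Perm Ω)
    (F : Perm Ω → M) : sumH (stab w) (fun h => F (g⁻¹ * h * g)) = sumH (stab (w ∘ g)) F := by
  classical
  unfold sumH
  refine Finset.sum_nbij' (fun h => g⁻¹ * h * g) (fun h => g * h * g⁻¹) ?_ ?_ ?_ ?_ ?_
  · intro h hh
    simp only [Finset.mem_filter, Finset.mem_univ, true_and, mem_stab] at hh ⊢
    funext a
    simpa using congrFun hh (g a)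
  · intro h hh
    simp only [Finset.mem_filter, Finset.mem_univ, true_and, mem_stab] at hh ⊢
    funext a
    simpa using congrFun hh (g⁻¹ a)
  · intro h _
    group
  · intro h _
    group
  · intro h _
    rfl

/-- Highest weight vectors: functions on the words of content `l` killed by averaging over the
stabiliser of every word whose content is lexicographically larger. -/
def Usub (Ω : Type) [Fintype Ω] [DecidableEq Ω] (l : Fin n → ℕ) :
    Subrepresentation (frep Ω (Fin n)) where
  toSubmodule :=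
    { carrier := {v | (∀ w, cont w ≠ fs l → v w = 0) ∧ ∀ w' : Ω → Fin n,
        toLex (fs l) < toLex (cont w') → ∀ w, sumH (stab w') (fun h => v (w ∘ h)) = 0}
      add_mem' := fun {u v} hu hv => ⟨fun w hw => by simp [hu.1 w hw, hv.1 w hw], fun w' hw' w => by
        have h1 := hu.2 w' hw' w
        have h2 := hv.2 w' hw' w
        simp only [sumH, Pi.add_apply, Finset.sum_add_distrib] at h1 h2 ⊢
        rw [h1, h2, add_zero]⟩
      zero_mem' := ⟨fun _ _ => rfl, fun _ _ _ => by simp [sumH]⟩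
      smul_mem' := fun c v hv => ⟨fun w hw => by simp [hv.1 w hw], fun w' hw' w => by
        have h1 := hv.2 w' hw' w
        simp only [sumH, Pi.smul_apply, ← Finset.smul_sum] at h1 ⊢
        rw [h1, smul_zero]⟩ }
  apply_mem_toSubmodule g v hv := ⟨fun w hw => hv.1 _ (by rwa [cont_comp]), fun w' hw' w => by
    have h1 := hv.2 (w' ∘ g) (by rwa [cont_comp]) (w ∘ g)
    rw [← sumH_conj] at h1
    rw [← h1]
    congr 1
    funext h
    change v ((w ∘ h) ∘ g) = v _
    congr 1
    funext a
    simp⟩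

theorem mem_Usub {l : Fin n → ℕ} {v : (Ω → Fin n) → ℂ} :
    v ∈ (Usub Ω l).toSubmodule ↔ (∀ w, cont w ≠ fs l → v w = 0) ∧ ∀ w' : Ω → Fin n,
      toLex (fs l) < toLex (cont w') → ∀ w, sumH (stab w') (fun h => v (w ∘ h)) = 0 := Iff.rfl

variable {a d : ℕ}

/-- The wreath product: permutations of an `a × d` array of positions preserving the rows. -/
def wr {Ω : Type} (e : Ω ≃ Fin a × Fin d) : Subgroup (Perm Ω) where
  carrier := {g | ∃ (σ : Perm (Fin a)) (τ : Fin a → Perm (Fin d)),
    ∀ i j, g (e.symm (i, j)) = e.symm (σ i, τ i j)}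
  one_mem' := ⟨1, 1, fun _ _ => rfl⟩
  mul_mem' := by
    rintro g h ⟨σ, τ, hg⟩ ⟨σ', τ', hh⟩
    exact ⟨σ * σ', fun i => τ (σ' i) * τ' i, fun i j => by simp [hg, hh]⟩
  inv_mem' := by
    rintro g ⟨σ, τ, hg⟩
    refine ⟨σ⁻¹, fun i => (τ (σ⁻¹ i))⁻¹, fun i j => ?_⟩
    rw [Perm.inv_eq_iff_eq, hg]
    simp

theorem mem_wr {Ω : Type} {e : Ω ≃ Fin a × Fin d} {g : Perm Ω} : g ∈ wr e ↔
    ∃ (σ : Perm (Fin a)) (τ : Fin a → Perm (Fin d)),
      ∀ i j, g (e.symm (i, j)) = e.symm (σ i, τ i j) := Iff.rfl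

/-- The multiset of letters in row `i`. -/
def blk {Ω : Type} (e : Ω ≃ Fin a × Fin d) (w : Ω → Fin n) (i : Fin a) : Sym (Fin n) d :=
  ⟨Finset.univ.val.map fun j : Fin d => w (e.symm (i, j)), by simp⟩

/-- The multiset of the rows of a word. -/
def blks {Ω : Type} (e : Ω ≃ Fin a × Fin d) (w : Ω → Fin n) : Sym (Sym (Fin n) d) a :=
  ⟨Finset.univ.val.map (blk e w), by simp⟩

/-- From functions on words to the symmetric algebra of the `d`-th symmetric power. -/
noncomputable def pim (n : ℕ) (e : Ω ≃ Fin a × Fin d) :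
    ((Ω → Fin n) → ℂ) →ₗ[ℂ] MvPolynomial (Sym (Fin n) d) ℂ :=
  Fintype.linearCombination ℂ fun w => ∏ i, X (blk e w i)

theorem pim_apply (e : Ω ≃ Fin a × Fin d) (v : (Ω → Fin n) → ℂ) :
    pim n e v = ∑ w, v w • ∏ i, X (blk e w i) := Fintype.linearCombination_apply _ _ _

/-- Outer product of functions on words. -/
def tens {Ω Ω' : Type} {A : Type*} (v : (Ω → A) → ℂ) (v' : (Ω' → A) → ℂ) :
    (Ω ⊕ Ω' → A) → ℂ := fun w => v (w ∘ Sum.inl) * v' (w ∘ Sum.inr)

end Word

end Vale.Agent.P181.R
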