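import Vale.Agent.P181.Bridge2

/-! The canonical map is surjective as soon as `(a - 1) ^ 2 ≤ b`. -/

namespace Vale.Agent.P181

open Polynomial

universe v

variable {K : Type*} [Field K] [CharZero K]
variable {W : Type*} [AddCommGroup W] [Module K W]

theorem step_four {S : Type*} [CommRing S] [Algebra K S] {m : ℕ} (x : Fin (m + 1) → W →ₗ[K] S)
    (d : ℕ) :
    (normSpan Finset.univ (rootY x) m * (normSpan Finset.univ (rootY x) 1) ^ d *
      (LinearMap.range (rootZ x)) ^ (d + m)).map (sumMap K S (Fin (m + 1))) ≤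
      (normSpan Finset.univ x 1) ^ (d + m) := by
  rw [Submodule.map_le_iff_le_comap, mul_assoc]
  refine le_trans (mul_le_mul_right (root_pow (rootY x) (rootZ x) d) _) ?_
  refine le_trans (mul_le_mul_right (mul_le_mul_right (range_pow_le_span (rootZ x) m) _) _) ?_
  simp only [rootY_mul_rootZ]
  rw [normSpan, Submodule.span_pow, Submodule.span_mul_span, Submodule.span_mul_span,
    Submodule.span_le]
  rintro _ ⟨_, ⟨u, rfl⟩, _, ⟨p, hp, _, ⟨v, rfl⟩, rfl⟩, rfl⟩
  have hp' : ∃ p' ∈ (normSpan Finset.univ x 1) ^ d, p = fun _ => p' := by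
    rw [Set.mem_pow] at hp
    obtain ⟨f, rfl⟩ := hp
    choose w hw using fun i => (f i).2
    refine ⟨∏ i : Fin d, ∏ j, x j (w i), ?_, ?_⟩
    · have := prod_mem_prod' (K := K) Finset.univ (fun _ : Fin d => normSpan Finset.univ x 1)
        (fun i => ∏ j, x j (w i)) (fun i _ => Submodule.subset_span ⟨w i, by simp⟩)
      simpa using this
    · rw [List.prod_ofFn]
      funext k
      rw [Finset.prod_apply]
      refine Finset.prod_congr rfl fun i _ => ?_
      rw [← hw i]
  obtain ⟨p', hp', rfl⟩ := hp'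
  simp only [SetLike.mem_coe, Submodule.mem_comap, sumMap_apply]
  have : ∑ k, (((∏ j, rootY x j u) ^ m * ((fun _ => p' : Fin (m + 1) → S) * rootZ x v ^ m) :
      Fin (m + 1) → S)) k = p' * ∑ k, (x k v * ∏ j ∈ Finset.univ.erase k, x j u) ^ m := by
    rw [Finset.mul_sum]
    refine Finset.sum_congr rfl fun k _ => ?_
    simp only [Pi.mul_apply, Pi.pow_apply, rootY_prod, rootZ, LinearMap.pi_apply]
    ring
  rw [this, pow_add]
  exact Submodule.mul_mem_mul hp' (newton_mem x u v m)

theorem main_incl_sq (a : ℕ) : ∀ (S : Type v) [CommRing S] [Algebra K S]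
    (x : Fin a → W →ₗ[K] S) (b : ℕ), (a - 1) ^ 2 ≤ b →
    symSpan x b ≤ (normSpan Finset.univ x 1) ^ b := by
  induction a with
  | zero =>
    intro S _ _ x b _
    exact main_incl 0 S x b (by simp)
  | succ m ih =>
    intro S _ _ x b hb
    simp only [Nat.add_sub_cancel] at hb
    obtain ⟨d, rfl⟩ : ∃ d, b = d + m := ⟨b - m, by
      have : m ≤ m ^ 2 := Nat.le_self_pow two_ne_zero m
      omega⟩
    have hd : (m - 1) ^ 2 ≤ d := by
      rcases m with _ | k
      · simp
      · simp only [Nat.add_sub_cancel]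
        nlinarith
    refine le_trans (step_two x (d + m)) (le_trans (Submodule.map_mono ?_) (step_four x d))
    refine mul_le_mul_left (le_trans (step_one (rootY x) m d (by nlinarith)) ?_) _
    exact mul_le_mul_right (ih _ (rootY x) d hd) _

theorem square_stabilization {K : Type} [Field K] [CharZero K] {V : Type v} [AddCommGroup V]
    [Module K V] [FiniteDimensional K V] (a b : ℕ) (hb : (a - 1) ^ 2 ≤ b) :
    (∃ Ψ : SymmetricPower K (Fin a) (SymmetricPower K (Fin b) V) →
        SymmetricPower K (Fin b) (SymmetricPower K (Fin a) V),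
      IsLinearMap K Ψ ∧ IsFoulkesHowe K a b V Ψ ∧ IsGLEquivariant K a b V Ψ ∧
        Function.Injective Ψ) ∧
    (∃ Φ : SymmetricPower K (Fin b) (SymmetricPower K (Fin a) V) →
        SymmetricPower K (Fin a) (SymmetricPower K (Fin b) V),
      IsLinearMap K Φ ∧ IsFoulkesHowe K b a V Φ ∧ IsGLEquivariant K b a V Φ ∧
        Function.Surjective Φ) := by
  obtain ⟨Ψ, hΨ⟩ := exists_foulkesHowe (K := K) (V := V) a b
  obtain ⟨Φ, hΦ⟩ := exists_foulkesHowe (K := K) (V := V) b a
  exact ⟨⟨Ψ, Ψ.isLinear, hΨ, hΨ.equivariant, hΨ.injective (main_incl_sq a _ _ b hb)⟩,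
    ⟨Φ, Φ.isLinear, hΦ, hΦ.equivariant, hΦ.surjective (main_incl_sq a _ _ b hb)⟩⟩

end Vale.Agent.P181
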