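import Vale.Agent.P181.R.Chr

/-! Comparing multiplicities gives an equivariant injection.

PLAN.  Strong induction on finrank V, generalising V, W, ρ, σ.  If V is trivial take 0.  Otherwise take
an irreducible S ≤ ρ (exists_irr_sub) with complement S'.  By ip_char, ip_comm, char_add and
`finrank_intertwiningMap_self`, finrank (ρ → S) ≥ 1, so finrank (σ → S) = finrank (S → σ) ≥ 1: a nonzero
f₀ : S → σ, injective (`IsIrreducible.injective_or_eq_zero`).  T = range f₀ has the character of S
(`char_iso`), let T' be a complement.  For irreducible τ: finrank (ρ → τ) = finrank (S → τ) +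
finrank (S' → τ) and finrank (σ → τ) = finrank (S → τ) + finrank (T' → τ) (cast to ℂ, ipL), so the
induction hypothesis gives f₁ : S' → T' injective.  Glue with `LinearMap.ofIsCompl`; injective because
T ⊓ T' = ⊥. -/

namespace Vale.Agent.P181.R

open MvPolynomial Equiv

variable {G : Type} [Group G] [Fintype G]

namespace InjA

open Representation

theorem rk_add {V X : Type} [AddCommGroup V] [Module ℂ V] [FiniteDimensional ℂ V]
    [AddCommGroup X] [Module ℂ X] [FiniteDimensional ℂ X]
    {ρ : Representation ℂ G V} {S S' : Subrepresentation ρ}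
    (h : IsCompl S.toSubmodule S'.toSubmodule) (τ : Representation ℂ G X) :
    Module.finrank ℂ (IntertwiningMap ρ τ) =
      Module.finrank ℂ (IntertwiningMap S.toRepresentation τ) +
        Module.finrank ℂ (IntertwiningMap S'.toRepresentation τ) := by
  have h1 := ip_char τ ρ
  rw [char_add h, ← ipL_apply, map_add, ipL_apply, ipL_apply, ip_char, ip_char] at h1
  exact_mod_cast h1.symm

theorem rk_comm {V X : Type} [AddCommGroup V] [Module ℂ V] [FiniteDimensional ℂ V]
    [AddCommGroup X] [Module ℂ X] [FiniteDimensional ℂ X]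
    (ρ : Representation ℂ G V) (τ : Representation ℂ G X) :
    Module.finrank ℂ (IntertwiningMap ρ τ) = Module.finrank ℂ (IntertwiningMap τ ρ) := by
  have h1 := ip_char τ ρ
  rw [ip_comm, ip_char] at h1
  exact_mod_cast h1.symm

theorem rk_congr {V W X : Type} [AddCommGroup V] [Module ℂ V] [FiniteDimensional ℂ V]
    [AddCommGroup W] [Module ℂ W] [FiniteDimensional ℂ W]
    [AddCommGroup X] [Module ℂ X] [FiniteDimensional ℂ X]
    {ρ : Representation ℂ G V} {σ : Representation ℂ G W} (h : ρ.character = σ.character)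
    (τ : Representation ℂ G X) :
    Module.finrank ℂ (IntertwiningMap ρ τ) = Module.finrank ℂ (IntertwiningMap σ τ) := by
  have h1 := ip_char τ ρ
  rw [h, ip_char] at h1
  exact_mod_cast h1.symm

omit [Fintype G] in
theorem char_range {V W : Type} [AddCommGroup V] [Module ℂ V] [FiniteDimensional ℂ V]
    [AddCommGroup W] [Module ℂ W] [FiniteDimensional ℂ W]
    {ρ : Representation ℂ G V} {σ : Representation ℂ G W} (f : IntertwiningMap ρ σ)
    (hf : Function.Injective f) :
    ρ.character = (IntertwiningMap.range ρ σ f).toRepresentation.character := by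
  refine char_iso (Representation.Equiv.mk (LinearEquiv.ofInjective f.toLinearMap hf) fun g => ?_)
  ext v
  exact IntertwiningMap.isIntertwining ρ σ f g v

omit [Fintype G] in
theorem glue {V W : Type} [AddCommGroup V] [Module ℂ V] [AddCommGroup W] [Module ℂ W]
    {ρ : Representation ℂ G V} {σ : Representation ℂ G W} {S S' : Subrepresentation ρ}
    (h : IsCompl S.toSubmodule S'.toSubmodule) (f₀ : IntertwiningMap S.toRepresentation σ)
    (f₁ : IntertwiningMap S'.toRepresentation σ) :
    ∃ f : IntertwiningMap ρ σ, (∀ u : S.toSubmodule, f u = f₀ u) ∧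
      ∀ u : S'.toSubmodule, f u = f₁ u := by
  refine ⟨LinearMap.intertwiningMap_of_isIntertwiningMap ρ σ
    (LinearMap.ofIsCompl h f₀.toLinearMap f₁.toLinearMap) fun g v => ?_, fun u => ?_, fun u => ?_⟩
  · obtain ⟨a, b, rfl, -⟩ := Submodule.existsUnique_add_of_isCompl h v
    have ha : ρ g (a : V) = ((S.toRepresentation g a : S.toSubmodule) : V) := rfl
    have hb : ρ g (b : V) = ((S'.toRepresentation g b : S'.toSubmodule) : V) := rfl
    rw [map_add, map_add, map_add, map_add, ha, hb, LinearMap.ofIsCompl_apply_left,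
      LinearMap.ofIsCompl_apply_left, LinearMap.ofIsCompl_apply_right,
      LinearMap.ofIsCompl_apply_right]
    exact congrArg₂ (· + ·) (IntertwiningMap.isIntertwining _ _ f₀ g a)
      (IntertwiningMap.isIntertwining _ _ f₁ g b)
  · exact LinearMap.ofIsCompl_apply_left h u
  · exact LinearMap.ofIsCompl_apply_right h u

/-- The inclusion of a subrepresentation. -/
def incl {G V : Type} [Group G] [AddCommGroup V] [Module ℂ V] {ρ : Representation ℂ G V}
    (S : Subrepresentation ρ) : IntertwiningMap S.toRepresentation ρ where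
  toLinearMap := S.toSubmodule.subtype
  isIntertwining' _ := rfl

theorem aux (n : ℕ) : ∀ {V W : Type} [AddCommGroup V] [Module ℂ V] [FiniteDimensional ℂ V]
    [AddCommGroup W] [Module ℂ W] [FiniteDimensional ℂ W]
    (ρ : Representation ℂ G V) (σ : Representation ℂ G W), Module.finrank ℂ V = n →
    (∀ (X : Type) [AddCommGroup X] [Module ℂ X] [FiniteDimensional ℂ X]
      (τ : Representation ℂ G X), τ.IsIrreducible →
      Module.finrank ℂ (IntertwiningMap ρ τ) ≤ Module.finrank ℂ (IntertwiningMap σ τ)) →
    ∃ f : IntertwiningMap ρ σ, Function.Injective f := by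
  induction n using Nat.strong_induction_on with
  | _ n ih =>
  intro V W _ _ _ _ _ _ ρ σ hn h
  rcases subsingleton_or_nontrivial V with hV | hV
  · exact ⟨0, fun _ _ _ => Subsingleton.elim _ _⟩
  obtain ⟨S, hS⟩ := exists_irr_sub ρ
  obtain ⟨S', hc⟩ := exists_compl S
  have h1 : Module.finrank ℂ (IntertwiningMap S.toRepresentation S.toRepresentation) = 1 :=
    IsIrreducible.finrank_intertwiningMap_self _
  have h2 : 0 < Module.finrank ℂ (IntertwiningMap S.toRepresentation σ) := by
    have h3 := h _ S.toRepresentation hS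
    rw [rk_add hc, h1, rk_comm σ] at h3
    omega
  obtain ⟨f₀, hf₀⟩ := Module.finrank_pos_iff_exists_ne_zero.1 h2
  have hi₀ : Function.Injective f₀ := (IsIrreducible.injective_or_eq_zero f₀).resolve_right hf₀
  obtain ⟨T', hT⟩ := exists_compl (IntertwiningMap.range _ _ f₀)
  have hSpos : 0 < Module.finrank ℂ S.toSubmodule := by
    rcases subsingleton_or_nontrivial S.toSubmodule with hs | hs
    · exact absurd (IntertwiningMap.ext (LinearMap.ext fun v => by
        rw [Subsingleton.elim v 0, map_zero, map_zero])) hf₀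
    · exact Module.finrank_pos
  have hlt : Module.finrank ℂ S'.toSubmodule < n := by
    have := Submodule.finrank_add_eq_of_isCompl hc
    omega
  obtain ⟨f₁, hi₁⟩ := ih _ hlt S'.toRepresentation T'.toRepresentation rfl fun X _ _ _ τ hτ => by
    have h3 := h X τ hτ
    rw [rk_add hc, rk_add hT, rk_congr (char_range f₀ hi₀) τ] at h3
    omega
  obtain ⟨f, hl, hr⟩ := glue hc f₀ (IntertwiningMap.comp (incl T') f₁)
  refine ⟨f, (injective_iff_map_eq_zero f).2 fun v hv => ?_⟩
  obtain ⟨a, b, rfl, -⟩ := Submodule.existsUnique_add_of_isCompl hc v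
  rw [map_add, hl, hr] at hv
  have hb : (IntertwiningMap.comp (incl T') f₁) b = ((f₁ b : T'.toSubmodule) : W) := rfl
  rw [hb] at hv
  have ha0 : f₀ a = 0 := by
    refine (Submodule.disjoint_def.1 hT.disjoint) _ ⟨a, rfl⟩ ?_
    rw [eq_neg_of_add_eq_zero_left hv]
    exact neg_mem (f₁ b).2
  rw [ha0, zero_add] at hv
  have hb0 : f₁ b = 0 := Subtype.ext hv
  rw [(injective_iff_map_eq_zero f₀).1 hi₀ a ha0, (injective_iff_map_eq_zero f₁).1 hi₁ b hb0]
  simp

end InjA

theorem exists_inj {V W : Type} [AddCommGroup V] [Module ℂ V] [FiniteDimensional ℂ V]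
    [AddCommGroup W] [Module ℂ W] [FiniteDimensional ℂ W]
    (ρ : Representation ℂ G V) (σ : Representation ℂ G W)
    (h : ∀ (X : Type) [AddCommGroup X] [Module ℂ X] [FiniteDimensional ℂ X]
      (τ : Representation ℂ G X), τ.IsIrreducible →
      Module.finrank ℂ (Representation.IntertwiningMap ρ τ) ≤
        Module.finrank ℂ (Representation.IntertwiningMap σ τ)) :
    ∃ f : Representation.IntertwiningMap ρ σ, Function.Injective f :=
  InjA.aux _ ρ σ rfl h

end Vale.Agent.P181.R
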