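import Vale.Agent.P181.R.Pol

/-! Young subgroups and Frobenius reciprocity.

PLAN.  young: polya with Z = (j : Fin n) → Sym (Fin n) (cont w' j),
q w j = the multiset (univ.filter (w' · = j)).val.map w, φ z = ∏ j, ((z j).1.map X).prod;
∑ z, φ z = ∏ j, hsymm (`Finset.prod_univ_sum`, `Fintype.piFinset_univ`).  q w = q w₂ iff the words
a ↦ (w' a, w a) and a ↦ (w' a, w₂ a) have the same multiset (count), then exists_perm_of_map_eq.
Surjective: choose on every fibre of w' an enumeration of the multiset.  monomial_cont and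
`Finset.prod_fiberwise`.
frob: coeff β (pg n g) is the number of words of content β fixed by g, so the left sum is
∑ over words w of content β of sumH (stab w) F = (number of such words) • sumH (stab w₀) F
(exists_perm_of_cont_eq, sumH_conj); orbit_stab with H = ⊤ gives
(number of such words) * card (stab w₀) = card (Perm Ω).
sum_coeffZ_pg: if some γ i < 0 both sides vanish; otherwise exists_cont, frob with F = pg n, young, and
cancel card (stab w₀) ≠ 0. -/

namespace Vale.Agent.P181.R

open MvPolynomial Equiv

variable {Ω : Type} [Fintype Ω] [DecidableEq Ω] {n : ℕ}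

namespace Yng

omit [DecidableEq Ω] in
theorem cont_apply (w : Ω → Fin n) (j : Fin n) : cont w j = (Finset.univ.filter (w · = j)).card := by
  rw [cont, Finsupp.finsetSum_apply, Finset.card_filter]
  exact Finset.sum_congr rfl fun a _ => Finsupp.single_apply

/-- the letters of `w` on the fibres of `w'` -/
def q (w' w : Ω → Fin n) (j : Fin n) : Sym (Fin n) (cont w' j) :=
  ⟨(Finset.univ.filter (w' · = j)).val.map w, by rw [Multiset.card_map, cont_apply]; rfl⟩

omit [DecidableEq Ω] in
theorem count_q (w' w : Ω → Fin n) (j i : Fin n) :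
    Multiset.count i (q w' w j).1 = Multiset.count (j, i) (Finset.univ.val.map fun a => (w' a, w a)) := by
  simp only [q, Multiset.count_map, Finset.filter_val, Multiset.filter_filter]
  congr 1
  refine Multiset.filter_congr fun a _ => ?_
  simp only [Prod.mk.injEq]
  exact ⟨fun h => ⟨h.2.symm, h.1⟩, fun h => ⟨h.2, h.1.symm⟩⟩

theorem q_eq_iff (w' w w₂ : Ω → Fin n) : q w' w = q w' w₂ ↔ ∃ h ∈ stab w', w₂ = w ∘ h := by
  constructor
  · intro h
    obtain ⟨g, hg⟩ := exists_perm_of_map_eq (fun a => (w' a, w a)) (fun a => (w' a, w₂ a)) (by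
      ext ⟨j, i⟩
      rw [← count_q, ← count_q, h])
    refine ⟨g, ?_, ?_⟩
    · funext a
      exact (congrArg Prod.fst (congrFun hg a)).symm
    · funext a
      exact congrArg Prod.snd (congrFun hg a)
  · rintro ⟨g, hg, rfl⟩
    funext j
    apply Subtype.ext
    ext i
    rw [count_q, count_q]
    have e : (fun a => (w' a, (w ∘ g) a)) = (fun a => (w' a, w a)) ∘ g := by
      funext a
      exact Prod.ext (congrFun hg a).symm rfl
    rw [e, ← Multiset.map_map, Multiset.map_univ_val_equiv]

theorem exists_map {α β : Type} [DecidableEq α] [Nonempty β] (s : Finset α) :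
    ∀ m : Multiset β, Multiset.card m = s.card → ∃ f : α → β, s.val.map f = m := by
  induction s using Finset.induction_on with
  | empty =>
    intro m hm
    exact ⟨fun _ => Classical.arbitrary β, by simpa [eq_comm] using hm⟩
  | insert a s ha ih =>
    intro m hm
    rw [Finset.card_insert_of_notMem ha] at hm
    obtain ⟨b, m', rfl⟩ : ∃ b m', m = b ::ₘ m' := by
      induction m using Multiset.induction_on with
      | empty => simp at hm
      | cons b m' _ => exact ⟨b, m', rfl⟩
    obtain ⟨f, hf⟩ := ih m' (by simpa using hm)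
    refine ⟨Function.update f a b, ?_⟩
    rw [Finset.insert_val_of_notMem ha, Multiset.map_cons, Function.update_self, ← hf]
    congr 1
    refine Multiset.map_congr rfl fun x hx => Function.update_of_ne ?_ _ _
    rintro rfl
    exact ha hx

theorem q_surj (w' : Ω → Fin n) : Function.Surjective (q w') := by
  intro z
  have h : ∀ j, ∃ f : Ω → Fin n, (Finset.univ.filter (w' · = j)).val.map f = (z j).1 := fun j => by
    have : Nonempty (Fin n) := ⟨j⟩
    exact exists_map _ _ (by rw [(z j).2, cont_apply])
  choose f hf using h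
  refine ⟨fun a => f (w' a) a, funext fun j => Subtype.ext ?_⟩
  rw [← hf j]
  refine Multiset.map_congr rfl fun a ha => ?_
  have : w' a = j := by simpa using ha
  rw [this]

omit [Fintype Ω] [DecidableEq Ω] in
theorem card_stab_comp (w : Ω → Fin n) (g : Perm Ω) : Nat.card (stab (w ∘ g)) = Nat.card (stab w) := by
  refine Nat.card_congr ⟨fun h => ⟨g * h.1 * g⁻¹, ?_⟩, fun h => ⟨g⁻¹ * h.1 * g, ?_⟩, fun h => ?_, fun h => ?_⟩
  · funext a
    simpa using congrFun h.2 (g⁻¹ a)
  · funext a
    simpa using congrFun h.2 (g a)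
  · apply Subtype.ext
    simp only
    group
  · apply Subtype.ext
    simp only
    group

end Yng

theorem young (w' : Ω → Fin n) :
    sumH (stab w') (pg n) = Nat.card (stab w') • ∏ j, hsymm (Fin n) ℤ (cont w' j) := by
  rw [polya (stab w') (Yng.q w') (Yng.q_surj w') (Yng.q_eq_iff w') (fun z => ∏ j, ((z j).1.map X).prod)]
  · congr 1
    simp only [hsymm]
    rw [Finset.prod_univ_sum, Fintype.piFinset_univ]
  · intro w
    rw [monomial_cont, ← Finset.prod_fiberwise Finset.univ w']
    refine Finset.prod_congr rfl fun j _ => ?_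
    simp only [Yng.q, Multiset.map_map]
    rfl

theorem frob {M : Type*} [AddCommGroup M] (F : Perm Ω → M) (hF : ∀ g h, F (h⁻¹ * g * h) = F g)
    (w₀ : Ω → Fin n) :
    Nat.card (stab w₀) • ∑ g, coeff (cont w₀) (pg n g) • F g =
      Nat.card (Perm Ω) • sumH (stab w₀) F := by
  classical
  set O := Finset.univ.filter (fun w : Ω → Fin n => cont w = cont w₀) with hO
  have hmem : ∀ w ∈ O, ∃ g : Perm Ω, w = w₀ ∘ g := fun w hw =>
    exists_perm_of_cont_eq (Finset.mem_filter.1 hw).2.symm
  have h1 : ∑ g, coeff (cont w₀) (pg n g) • F g = ∑ w ∈ O, sumH (stab w) F := by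
    simp only [pg, coeff_sum, coeff_monomial, Finset.sum_smul, sumH, hO, Finset.sum_filter]
    rw [Finset.sum_comm]
    refine Finset.sum_congr rfl fun w _ => ?_
    by_cases hw : cont w = cont w₀
    · simp only [hw, if_true]
      refine Finset.sum_congr rfl fun g _ => ?_
      simp only [mem_stab]
      split_ifs <;> simp
    · rw [if_neg hw]
      refine Finset.sum_eq_zero fun g _ => ?_
      split_ifs <;> simp [hw]
  have h2 : ∀ w ∈ O, sumH (stab w) F = sumH (stab w₀) F := fun w hw => by
    obtain ⟨g, rfl⟩ := hmem w hw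
    rw [← sumH_conj]
    simp only [hF]
  have h3 : O.card * Nat.card (stab w₀) = Nat.card (Perm Ω) := by
    have h := orbit_stab (⊤ : Subgroup (Perm Ω)) w₀
    rw [Subgroup.card_top] at h
    rw [← h, ← smul_eq_mul, ← Finset.sum_const]
    refine Finset.sum_congr ?_ fun w hw => ?_
    · ext w
      simp only [hO, Finset.mem_filter, Finset.mem_univ, true_and, Subgroup.mem_top]
      constructor
      · exact fun h => exists_perm_of_cont_eq h.symm
      · rintro ⟨g, rfl⟩
        exact cont_comp _ _
    · obtain ⟨g, -, rfl⟩ := (Finset.mem_filter.1 hw).2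
      rw [top_inf_eq, Yng.card_stab_comp]
  rw [h1, Finset.sum_congr rfl h2, Finset.sum_const, ← h3, smul_smul, mul_comm]

theorem sum_coeffZ_pg {γ : Fin n → ℤ} (hγ : ∑ i, γ i = Fintype.card Ω) :
    ∑ g : Perm Ω, coeffZ γ (pg n g) • pg n g = Nat.card (Perm Ω) • ∏ i, hz n (γ i) := by
  by_cases hpos : ∀ i, 0 ≤ γ i
  · have hs : ∑ i, (γ i).toNat = Fintype.card Ω := by
      have : ((∑ i, (γ i).toNat : ℕ) : ℤ) = Fintype.card Ω := by
        rw [← hγ, Nat.cast_sum]
        exact Finset.sum_congr rfl fun i _ => Int.toNat_of_nonneg (hpos i)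
      exact_mod_cast this
    obtain ⟨w₀, hw⟩ := exists_cont hs
    have h := frob (pg n) (fun g h => pg_conj g h) w₀
    rw [young, smul_comm] at h
    have hne : Nat.card (stab w₀) ≠ 0 := Nat.card_pos.ne'
    have h' := smul_right_injective (MvPolynomial (Fin n) ℤ) hne h
    simp only [coeffZ, if_pos hpos]
    simp only [hz, hpos, if_true]
    rw [hw] at h'
    exact h'
  · simp only [coeffZ, if_neg hpos, zero_smul, Finset.sum_const_zero]
    push Not at hpos
    obtain ⟨i, hi⟩ := hpos
    rw [Finset.prod_eq_zero (Finset.mem_univ i) (by simp [hz, not_le.2 hi]), smul_zero]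

end Vale.Agent.P181.R
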