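import Vale.Agent.P181.R.SymC
import Vale.Agent.P181.R.Chr
import Vale.Agent.P181.R.Yng

/-! The Frobenius characters are irreducible and exhaust the constituents of the word modules. -/

namespace Vale.Agent.P181.R

open MvPolynomial Equiv

variable {Ω : Type} [Fintype Ω] [DecidableEq Ω] {n : ℕ}

theorem sum_sh (l : Fin n → ℕ) (σ : Perm (Fin n)) : ∑ i, sh l σ i = ((∑ i, l i : ℕ) : ℤ) := by
  have h : ∑ i, ((σ i : ℕ) : ℤ) = ∑ i : Fin n, ((i : ℕ) : ℤ) :=
    Equiv.sum_comp σ fun i => ((i : ℕ) : ℤ)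
  simp only [sh, Finset.sum_add_distrib, Finset.sum_sub_distrib, h]
  push_cast
  ring

theorem sum_chi_pg {l : Fin n → ℕ} (hl : ∑ i, l i = Fintype.card Ω) :
    ∑ g : Perm Ω, mult n (pg n g) l • pg n g = Nat.card (Perm Ω) • schur n l := by
  simp only [mult_eq_sum, Finset.sum_smul, mul_smul]
  rw [Finset.sum_comm, schur_eq_sum, Finset.smul_sum]
  refine Finset.sum_congr rfl fun σ _ => ?_
  rw [← Finset.smul_sum, sum_coeffZ_pg (by rw [sum_sh, hl]), smul_comm]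

omit [DecidableEq Ω] in
theorem card_perm_ne : (Nat.card (Perm Ω) : ℂ) ≠ 0 := by exact_mod_cast Nat.card_pos.ne'

theorem ip_chi_of {l : Fin n → ℕ} (hl : ∑ i, l i = Fintype.card Ω)
    (φ : MvPolynomial (Fin n) ℤ →ₗ[ℤ] ℤ) :
    ip (chi Ω l) (fun g => ((φ (pg n g) : ℤ) : ℂ)) = (φ (schur n l) : ℤ) := by
  have h := congrArg φ (sum_chi_pg hl)
  rw [map_nsmul, map_sum] at h
  simp only [map_smul, smul_eq_mul, nsmul_eq_mul] at h
  have h2 := congrArg (Int.cast : ℤ → ℂ) h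
  push_cast at h2
  simp only [ip, chi, pg_inv]
  rw [h2, ← mul_assoc, inv_mul_cancel₀ card_perm_ne, one_mul]

theorem ip_chi_xi {l : Fin n → ℕ} (hl : ∑ i, l i = Fintype.card Ω) (β : Fin n →₀ ℕ) :
    ip (chi Ω l) (xi Ω β) = (coeff β (schur n l) : ℤ) :=
  ip_chi_of hl (lcoeff ℤ β)

theorem ip_chi_self {l : Fin n → ℕ} (hl : l ∈ par n (Fintype.card Ω)) :
    ip (chi Ω l) (chi Ω l) = 1 := by
  have h := ip_chi_of (mem_par.1 hl).2 (multL n l)
  rw [multL_apply, mult_schur (mem_par.1 hl).1 (mem_par.1 hl).1, if_pos rfl,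
    Int.cast_one] at h
  exact h

theorem xi_eq_sum (β : Fin n →₀ ℕ) :
    xi Ω β = ∑ l ∈ par n (Fintype.card Ω), ((coeff β (schur n l) : ℤ) : ℂ) • chi Ω l := by
  funext g
  have h := congrArg (coeff β) (eq_sum_schur (pg_symm (n := n) g) (pg_homog g))
  simp only [coeff_sum, coeff_smul, smul_eq_mul] at h
  simp only [xi, Finset.sum_apply, Pi.smul_apply, smul_eq_mul, chi]
  rw [h]
  push_cast
  exact Finset.sum_congr rfl fun l _ => mul_comm _ _

theorem xi_virt (β : Fin n →₀ ℕ) : xi Ω β ∈ virt (Perm Ω) := by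
  rw [← char_Wsub]
  exact char_mem_virt _

theorem chi_virt (l : Fin n → ℕ) : chi Ω l ∈ virt (Perm Ω) := by
  classical
  have h : chi Ω l = ∑ σ : Perm (Fin n), ((Perm.sign σ : ℤˣ) : ℤ) •
      (if ∀ i, 0 ≤ sh l σ i then xi Ω (fs fun i => (sh l σ i).toNat) else 0) := by
    funext g
    simp only [chi, mult_eq_sum, Finset.sum_apply, Pi.smul_apply, coeffZ]
    push_cast
    refine Finset.sum_congr rfl fun σ _ => ?_
    split_ifs <;> simp [xi]
  rw [h]
  refine AddSubgroup.sum_mem _ fun σ _ => AddSubgroup.zsmul_mem _ ?_ _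
  split_ifs
  exacts [xi_virt _, AddSubgroup.zero_mem _]

theorem IsIrr.ip_xi {ψ : Perm Ω → ℂ} (h : IsIrr ψ) (β : Fin n →₀ ℕ) :
    ∃ m : ℕ, ip ψ (xi Ω β) = m := by
  obtain ⟨V, _, _, _, ρ, -, rfl⟩ := h
  rw [← char_Wsub]
  exact ⟨_, ip_char _ _⟩

theorem chi_irr {l : Fin n → ℕ} (hl : l ∈ par n (Fintype.card Ω)) : IsIrr (chi Ω l) := by
  refine (irr_of_virt (chi_virt l) (ip_chi_self hl)).resolve_right fun h => ?_
  obtain ⟨m, hm⟩ := h.ip_xi (fs l)
  rw [← ipL_apply, map_neg, LinearMap.neg_apply, ipL_apply, ip_chi_xi (mem_par.1 hl).2,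
    coeff_schur_self (mem_par.1 hl).1] at hm
  have : (-1 : ℤ) = m := by exact_mod_cast hm
  omega

theorem eq_chi_of_ip {ψ : Perm Ω → ℂ} (h : IsIrr ψ) {β : Fin n →₀ ℕ} (hβ : ip ψ (xi Ω β) ≠ 0) :
    ∃ l ∈ par n (Fintype.card Ω), coeff β (schur n l) ≠ 0 ∧ ψ = chi Ω l := by
  by_contra hc
  push Not at hc
  apply hβ
  rw [xi_eq_sum, ← ipL_apply, map_sum]
  refine Finset.sum_eq_zero fun l hl => ?_
  rw [map_smul, ipL_apply, h.ip_eq (chi_irr hl)]
  by_cases h0 : coeff β (schur n l) = 0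
  · simp [h0]
  · simp [hc l hl h0]

theorem ip_xi_eq {V : Type} [AddCommGroup V] [Module ℂ V] [FiniteDimensional ℂ V]
    (ρ : Representation ℂ (Perm Ω) V) (w₀ : Ω → Fin n) :
    ip ρ.character (xi Ω (cont w₀)) = Module.finrank ℂ (fixS ρ (stab w₀)) := by
  have h := frob ρ.character (fun g h => by simpa using ρ.char_conj g h⁻¹) w₀
  rw [sumH_char] at h
  have hs : (Nat.card (stab w₀) : ℂ) ≠ 0 := by exact_mod_cast Nat.card_pos.ne'
  simp only [nsmul_eq_mul, zsmul_eq_mul] at h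
  simp only [ip, xi, pg_inv]
  refine mul_left_cancel₀ hs (mul_left_cancel₀ (card_perm_ne (Ω := Ω)) ?_)
  rw [← h, ← mul_assoc, ← mul_assoc, mul_right_comm _ _ (Nat.card (Perm Ω) : ℂ)⁻¹,
    mul_inv_cancel₀ card_perm_ne, one_mul]
  congr 1
  exact Finset.sum_congr rfl fun g _ => mul_comm _ _

theorem sumH_chi {a d : ℕ} (H : Subgroup (Perm Ω))
    (hH : sumH H (pg n) = Nat.card H • pl n a d) (l : Fin n → ℕ) :
    sumH H (chi Ω l) = (Nat.card H : ℂ) * (mult n (pl n a d) l : ℤ) := by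
  have h := congrArg (multL n l) hH
  rw [map_nsmul, sumH, map_sum] at h
  simp only [multL_apply, nsmul_eq_mul] at h
  have h2 := congrArg (Int.cast : ℤ → ℂ) h
  push_cast at h2
  simpa only [sumH, chi] using h2

end Vale.Agent.P181.R
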