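import Vale.Agent.P181.R.Wre
import Vale.Agent.P181.R.InjB

/-! The image in the symmetric algebra has the dimension of the invariants.

PLAN.  ∏ i, X (blk e w i) = monomial (Multiset.toFinsupp (blks e w).1) 1, so it depends only on
blks e w, and z ↦ monomial (toFinsupp z.1) 1 is an injective family of monomials.
(1) pim (frep h v) = pim v for h ∈ wr e (reindex w ↦ w ∘ h, blks_eq_iff).  (2) if v is fixed by wr e and
pim v = 0 then v = 0: the coefficient at toFinsupp (blks e w₀).1 is (size of the orbit of w₀) * v w₀.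
(3) S.map pim = (fixS S (wr e)).map (pim ∘ subtype): average with asAlgebraHom_idem (or directly
(card H)⁻¹ • sumH H (fun h => frep h v), which is fixed by H and has the same image).  Conclude with
`LinearMap.finrank_range_of_inj` / `Submodule.equivMapOfInjective`. -/

namespace Vale.Agent.P181.R

open MvPolynomial Equiv

variable {Ω : Type} [Fintype Ω] [DecidableEq Ω] {n a d : ℕ}

namespace PiA

omit [Fintype Ω] [DecidableEq Ω] in
theorem prod_blk (e : Ω ≃ Fin a × Fin d) (w : Ω → Fin n) :
    (∏ i, X (blk e w i) : MvPolynomial (Sym (Fin n) d) ℂ) =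
      monomial (Multiset.toFinsupp (blks e w).1) 1 := by
  have h : Multiset.toFinsupp (blks e w).1 = ∑ i, Finsupp.single (blk e w i) 1 := by
    have h1 : (blks e w).1 = ∑ i, {blk e w i} := by
      change Multiset.map (blk e w) Finset.univ.val =
        (Multiset.map (fun i => ({blk e w i} : Multiset (Sym (Fin n) d))) Finset.univ.val).sum
      rw [← Function.comp_def (fun z => ({z} : Multiset _)) (blk e w), ← Multiset.map_map,
        Multiset.sum_map_singleton]
    rw [h1, map_sum]
    simp only [Multiset.toFinsupp_singleton]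
  rw [h, monomial_sum_one]
  rfl

theorem pim_frep (e : Ω ≃ Fin a × Fin d) {h : Perm Ω} (hh : h ∈ wr e) (v : (Ω → Fin n) → ℂ) :
    pim n e (frep Ω (Fin n) h v) = pim n e v := by
  rw [pim_apply, pim_apply]
  refine Fintype.sum_equiv (Equiv.arrowCongr h.symm (Equiv.refl _)) _ _ fun w => ?_
  change v (w ∘ h) • _ = v (w ∘ h) • ∏ i, X (blk e (w ∘ h) i)
  rw [prod_blk, prod_blk, (blks_eq_iff e w (w ∘ h)).2 ⟨h, hh, rfl⟩]

theorem eq_zero (e : Ω ≃ Fin a × Fin d) {v : (Ω → Fin n) → ℂ}
    (hv : ∀ h ∈ wr e, frep Ω (Fin n) h v = v) (h0 : pim n e v = 0) : v = 0 := by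
  funext w0
  have h1 := congrArg (coeff (Multiset.toFinsupp (blks e w0).1)) h0
  rw [pim_apply, coeff_sum, coeff_zero] at h1
  have h2 : ∀ w, coeff (Multiset.toFinsupp (blks e w0).1)
      (v w • (∏ i, X (blk e w i) : MvPolynomial (Sym (Fin n) d) ℂ)) =
      if blks e w = blks e w0 then v w0 else 0 := fun w => by
    rw [prod_blk, coeff_smul, coeff_monomial, smul_eq_mul]
    by_cases hw : blks e w = blks e w0
    · rw [if_pos hw, if_pos (by rw [hw]), mul_one]
      obtain ⟨h, hh, rfl⟩ := (blks_eq_iff e w w0).1 hw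
      exact (congrFun (hv h hh) w).symm
    · rw [if_neg hw, if_neg fun e' => hw (Subtype.ext (Multiset.toFinsupp.injective e')), mul_zero]
  simp only [h2] at h1
  rw [← Finset.sum_filter, Finset.sum_const, nsmul_eq_mul, mul_eq_zero, Nat.cast_eq_zero,
    Finset.card_eq_zero] at h1
  refine h1.resolve_left (Finset.nonempty_iff_ne_empty.1 ⟨w0, ?_⟩)
  simp

end PiA

theorem finrank_map_pim (e : Ω ≃ Fin a × Fin d) (S : Subrepresentation (frep Ω (Fin n))) :
    Module.finrank ℂ (S.toSubmodule.map (pim n e)) =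
      Module.finrank ℂ (fixS S.toRepresentation (wr e)) := by
  classical
  let f : fixS S.toRepresentation (wr e) →ₗ[ℂ] MvPolynomial (Sym (Fin n) d) ℂ :=
    pim n e ∘ₗ S.toSubmodule.subtype ∘ₗ (fixS S.toRepresentation (wr e)).subtype
  have hf : Function.Injective f := LinearMap.ker_eq_bot.1 <| LinearMap.ker_eq_bot'.2 fun v hv =>
    Subtype.ext (Subtype.ext (PiA.eq_zero e
      (fun h hh => congrArg Subtype.val (mem_fixS.1 v.2 h hh)) hv))
  rw [← LinearMap.finrank_range_of_inj hf]
  suffices H : S.toSubmodule.map (pim n e) = LinearMap.range f by rw [H]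
  refine le_antisymm ?_ ?_
  · rintro _ ⟨v, hv, rfl⟩
    let u : S.toSubmodule := S.toRepresentation.asAlgebraHom (idem (wr e)) ⟨v, hv⟩
    have hu : u ∈ fixS S.toRepresentation (wr e) := mem_fixS.2 fun h hh => by
      rw [← Representation.asAlgebraHom_single_one, ← Module.End.mul_apply, ← map_mul,
        single_mul_idem _ hh]
    refine ⟨⟨u, hu⟩, ?_⟩
    change (pim n e ∘ₗ S.toSubmodule.subtype) u = _
    simp only [u]
    rw [asAlgebraHom_idem, map_smul, sumH, map_sum, Finset.sum_congr rfl fun h hh =>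
      (show (pim n e ∘ₗ S.toSubmodule.subtype) (S.toRepresentation h ⟨v, hv⟩) = pim n e v from
        PiA.pim_frep e (Finset.mem_filter.1 hh).2 v), Finset.sum_const, ← Nat.cast_smul_eq_nsmul ℂ,
      smul_smul, ← Fintype.card_subtype, ← Nat.card_eq_fintype_card,
      inv_mul_cancel₀ (Nat.cast_ne_zero.2 Nat.card_pos.ne'), one_smul]
  · rintro _ ⟨v, rfl⟩
    exact ⟨v.1.1, v.1.2, rfl⟩

end Vale.Agent.P181.R
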