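import Vale.Agent.P181.R.Pol

/-! Products of highest weight vectors.

PLAN.  cont w = cont (w ∘ inl) + cont (w ∘ inr) (`Fintype.sum_sum_type`).  Let w' have content
lex-larger than l + μ; then cont (w' ∘ inl) is lex-larger than l or cont (w' ∘ inr) is lex-larger than μ
(`add_le_add` in the ordered monoid Lex (Fin n →₀ ℕ), `toLex_add`, fs_add).  In the first case, for
k ∈ stab (w' ∘ inl) the permutation k' = Equiv.sumCongr k 1 lies in stab w', so
Σ(h ∈ stab w') u (w ∘ h) = Σ(h) u (w ∘ (h * k')) for each k; summing over k,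
card • Σ(h) u (w ∘ h) = Σ(h) (Σ(k) v ((w ∘ h ∘ inl) ∘ k)) * v' (w ∘ h ∘ inr) = 0.  Same in the second
case.  single_mem: the constant word 0 has content single 0 a; no word of length a has a lex-larger
content (cont w' 0 ≤ a, with equality only for the constant word; `Finsupp.Lex.lt_iff`, sum_cont). -/

namespace Vale.Agent.P181.R

open MvPolynomial Equiv

variable {Ω Ω' : Type} [Fintype Ω] [DecidableEq Ω] [Fintype Ω'] [DecidableEq Ω'] {n : ℕ}

namespace PiB

theorem sumH_mul {G : Type} [Group G] [Fintype G] (H : Subgroup G) {k : G} (hk : k ∈ H)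
    (F : G → ℂ) : sumH H (fun h => F (h * k)) = sumH H F := by
  classical
  unfold sumH
  refine Finset.sum_nbij' (fun h => h * k) (fun h => h * k⁻¹) ?_ ?_ ?_ ?_ ?_
  · intro h hh
    simp only [Finset.mem_filter, Finset.mem_univ, true_and] at hh ⊢
    exact H.mul_mem hh hk
  · intro h hh
    simp only [Finset.mem_filter, Finset.mem_univ, true_and] at hh ⊢
    exact H.mul_mem hh (H.inv_mem hk)
  · intro h _
    group
  · intro h _
    group
  · intro h _
    rfl

theorem sumH_comm {G G' : Type} [Group G] [Fintype G] [Group G'] [Fintype G'] (H : Subgroup G)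
    (K : Subgroup G') (F : G → G' → ℂ) :
    sumH K (fun k => sumH H fun h => F h k) = sumH H fun h => sumH K fun k => F h k := by
  unfold sumH
  exact Finset.sum_comm

theorem vanish {G G' : Type} [Group G] [Fintype G] [Group G'] [Fintype G'] (H : Subgroup G)
    (K : Subgroup G') (φ : G' → G) (hφ : ∀ k ∈ K, φ k ∈ H) (F : G → ℂ)
    (h0 : ∀ h, sumH K (fun k => F (h * φ k)) = 0) : sumH H F = 0 := by
  classical
  have h1 : sumH K (fun k => sumH H fun h => F (h * φ k)) = 0 := by
    rw [sumH_comm]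
    simp only [h0]
    simp [sumH]
  have h2 : sumH K (fun k => sumH H fun h => F (h * φ k)) = sumH K fun _ => sumH H F := by
    unfold sumH
    refine Finset.sum_congr rfl fun k hk => ?_
    exact sumH_mul H (hφ k (Finset.mem_filter.1 hk).2) F
  rw [h2] at h1
  generalize sumH H F = c at h1 ⊢
  unfold sumH at h1
  rw [Finset.sum_const, nsmul_eq_mul, mul_eq_zero] at h1
  refine h1.resolve_left ?_
  rw [Nat.cast_eq_zero, Finset.card_eq_zero]
  refine Finset.ne_empty_of_mem (a := 1) ?_
  simp

omit [DecidableEq Ω] [DecidableEq Ω'] in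
theorem cont_sum (w : Ω ⊕ Ω' → Fin n) : cont w = cont (w ∘ Sum.inl) + cont (w ∘ Sum.inr) :=
  Fintype.sum_sum_type _

omit [DecidableEq Ω] in
theorem cont_apply (w : Ω → Fin n) (i : Fin n) :
    cont w i = (Finset.univ.filter fun a => w a = i).card := by
  unfold cont
  rw [Finsupp.finsetSum_apply, Finset.card_filter]
  exact Finset.sum_congr rfl fun a _ => Finsupp.single_apply

theorem cont_zero [NeZero n] (a : ℕ) :
    cont (fun _ : Fin a => (0 : Fin n)) = fs (Pi.single (0 : Fin n) a) := by
  ext i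
  rw [cont_apply, fs_apply]
  by_cases hi : i = 0
  · subst hi
    simp
  · rw [Pi.single_eq_of_ne hi]
    simp [Ne.symm hi]

end PiB

theorem tens_mem {l μ : Fin n → ℕ} {v : (Ω → Fin n) → ℂ} {v' : (Ω' → Fin n) → ℂ}
    (hv : v ∈ (Usub Ω l).toSubmodule) (hv' : v' ∈ (Usub Ω' μ).toSubmodule) :
    tens v v' ∈ (Usub (Ω ⊕ Ω') (l + μ)).toSubmodule := by
  rw [mem_Usub] at hv hv' ⊢
  refine ⟨fun w hw => ?_, fun w' hw' w => ?_⟩
  · rw [PiB.cont_sum, fs_add] at hw
    unfold tens
    by_cases h1 : cont (w ∘ Sum.inl) = fs l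
    · rw [hv'.1 _ fun h2 => hw (by rw [h1, h2]), mul_zero]
    · rw [hv.1 _ h1, zero_mul]
  · rw [PiB.cont_sum, fs_add, toLex_add, toLex_add] at hw'
    by_cases h1 : toLex (fs l) < toLex (cont (w' ∘ Sum.inl))
    · refine PiB.vanish _ (stab (w' ∘ Sum.inl)) (fun k => Equiv.sumCongr k (1 : Perm Ω')) ?_ _ ?_
      · intro k hk
        rw [mem_stab] at hk ⊢
        funext a
        rcases a with a | a
        · exact congrFun hk a
        · rfl
      · intro h
        have h2 := hv.2 _ h1 ((w ∘ h) ∘ Sum.inl)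
        have h3 : sumH (stab (w' ∘ Sum.inl)) (fun k => v (((w ∘ h) ∘ Sum.inl) ∘ k)) *
            v' ((w ∘ h) ∘ Sum.inr) = 0 := by rw [h2, zero_mul]
        rw [← h3]
        unfold sumH
        rw [Finset.sum_mul]
        rfl
    · have h2 : toLex (fs μ) < toLex (cont (w' ∘ Sum.inr)) := by
        by_contra h2
        exact absurd hw' (not_lt.2 (add_le_add (not_lt.1 h1) (not_lt.1 h2)))
      refine PiB.vanish _ (stab (w' ∘ Sum.inr)) (fun k => Equiv.sumCongr (1 : Perm Ω) k) ?_ _ ?_
      · intro k hk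
        rw [mem_stab] at hk ⊢
        funext a
        rcases a with a | a
        · rfl
        · exact congrFun hk a
      · intro h
        have h3 := hv'.2 _ h2 ((w ∘ h) ∘ Sum.inr)
        have h4 : v ((w ∘ h) ∘ Sum.inl) *
            sumH (stab (w' ∘ Sum.inr)) (fun k => v' (((w ∘ h) ∘ Sum.inr) ∘ k)) = 0 := by
          rw [h3, mul_zero]
        rw [← h4]
        unfold sumH
        rw [Finset.mul_sum]
        rfl

theorem single_mem [NeZero n] (a : ℕ) :
    (Pi.single (fun _ : Fin a => (0 : Fin n)) 1 : (Fin a → Fin n) → ℂ) ∈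
      (Usub (Fin a) (Pi.single (0 : Fin n) a)).toSubmodule := by
  rw [mem_Usub]
  refine ⟨fun w hw => ?_, fun w' hw' w => ?_⟩
  · refine Pi.single_eq_of_ne ?_ _
    rintro rfl
    exact hw (PiB.cont_zero a)
  · exfalso
    obtain ⟨i, h1, h2⟩ := Finsupp.Lex.lt_iff.1 hw'
    have h3 : (Finset.univ.filter fun b => w' b = 0).card ≤ a := by
      simpa using Finset.card_filter_le Finset.univ fun b => w' b = 0
    simp only [ofLex_toLex, fs_apply, PiB.cont_apply] at h1 h2
    by_cases hi : i = 0
    · subst hi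
      rw [Pi.single_eq_same] at h2
      omega
    · have h4 := h1 0 (Fin.pos_iff_ne_zero.2 hi)
      rw [Pi.single_eq_same] at h4
      have h5 : (Finset.univ.filter fun b => w' b = 0) = Finset.univ :=
        Finset.eq_univ_of_card _ (by rw [← h4, Fintype.card_fin])
      rw [Pi.single_eq_of_ne hi, Finset.card_pos] at h2
      obtain ⟨b, hb⟩ := h2
      have h6 : b ∈ (Finset.univ.filter fun b => w' b = 0) := by rw [h5]; exact Finset.mem_univ b
      exact hi ((Finset.mem_filter.1 hb).2.symm.trans (Finset.mem_filter.1 h6).2)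

end Vale.Agent.P181.R
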