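import Vale.Agent.P181.R.Defs

/-! The map to the symmetric algebra is multiplicative.

PLAN.  Words on Ω ⊕ Ω' are pairs of words (`Equiv.sumArrowEquivProdArrow`, `Fintype.sum_prod_type`,
`Finset.sum_mul_sum`).  Rows: e'' = (e.sumCongr e').trans ((Equiv.sumProdDistrib _ _ _).symm.trans
(finSumFinEquiv.prodCongr (Equiv.refl _))); blk e'' w (castAdd i) = blk e (w ∘ inl) i and
blk e'' w (natAdd i) = blk e' (w ∘ inr) i; `Fin.prod_univ_add`.
Column: e'' sends inl p to ((e p).1, (e p).2.succ) and inr i to (i, 0) (`finSuccEquiv`,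
`Equiv.prodSumDistrib`, `Equiv.optionEquivSumPUnit`, or build the Equiv by hand with `Fin.cases`);
blk e'' w i = w (inr i) ::ₛ blk e (w ∘ inl) i (`Fin.univ_val_map`, `List.ofFn_succ`);
only the word w ∘ inr = 0 contributes; `map_sum`, `map_prod`, `rename_X`. -/

namespace Vale.Agent.P181.R

open MvPolynomial Equiv

variable {Ω Ω' : Type} [Fintype Ω] [DecidableEq Ω] [Fintype Ω'] [DecidableEq Ω'] {n a a' d : ℕ}

namespace PiC

theorem sum_words {M : Type*} [AddCommMonoid M] (F : (Ω ⊕ Ω' → Fin n) → M) :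
    ∑ w, F w = ∑ u : Ω → Fin n, ∑ u' : Ω' → Fin n, F (Sum.elim u u') := by
  rw [← (Equiv.sumArrowEquivProdArrow Ω Ω' (Fin n)).symm.sum_comp, Fintype.sum_prod_type]
  rfl

/-- juxtaposition of a new first column -/
def col {Ω : Type} (e : Ω ≃ Fin a × Fin d) : Fin a × Fin (d + 1) ≃ Ω ⊕ Fin a where
  toFun x := Fin.cases (Sum.inr x.1) (fun j => Sum.inl (e.symm (x.1, j))) x.2
  invFun := Sum.elim (fun p => ((e p).1, (e p).2.succ)) fun i => (i, 0)
  left_inv := by
    rintro ⟨i, j⟩
    refine Fin.cases ?_ (fun j => ?_) j <;> simp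
  right_inv := by
    rintro (p | i) <;> simp

end PiC

theorem pim_tens_rows (e : Ω ≃ Fin a × Fin d) (e' : Ω' ≃ Fin a' × Fin d) :
    ∃ e'' : Ω ⊕ Ω' ≃ Fin (a + a') × Fin d, ∀ v v',
      pim n e'' (tens v v') = pim n e v * pim n e' v' := by
  refine ⟨(e.sumCongr e').trans ((Equiv.sumProdDistrib _ _ _).symm.trans
    (finSumFinEquiv.prodCongr (Equiv.refl _))), fun v v' => ?_⟩
  rw [pim_apply, pim_apply, pim_apply, PiC.sum_words, Finset.sum_mul_sum]
  refine Finset.sum_congr rfl fun u _ => Finset.sum_congr rfl fun u' _ => ?_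
  rw [smul_mul_smul_comm, Fin.prod_univ_add]
  congr 2
  · refine Finset.prod_congr rfl fun i _ => congrArg X (Subtype.ext ?_)
    simp [blk]
  · refine Finset.prod_congr rfl fun i _ => congrArg X (Subtype.ext ?_)
    simp [blk]

theorem pim_tens_col [NeZero n] (e : Ω ≃ Fin a × Fin d) :
    ∃ e'' : Ω ⊕ Fin a ≃ Fin a × Fin (d + 1), ∀ v,
      pim n e'' (tens v (Pi.single (fun _ : Fin a => (0 : Fin n)) 1)) =
        rename (Sym.cons (0 : Fin n)) (pim n e v) := by
  refine ⟨(PiC.col e).symm, fun v => ?_⟩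
  rw [pim_apply, pim_apply, PiC.sum_words, map_sum]
  refine Finset.sum_congr rfl fun u _ => ?_
  rw [Finset.sum_eq_single fun _ : Fin a => (0 : Fin n), map_smul, map_prod]
  · congr 1
    · simp [tens]
    · refine Finset.prod_congr rfl fun i _ => ?_
      rw [rename_X]
      refine congrArg X (Subtype.ext ?_)
      simp only [blk, PiC.col, Fin.univ_val_map, List.ofFn_succ]
      rfl
  · intro u' _ hu
    simp [tens, Pi.single_eq_of_ne hu]
  · exact fun h => absurd (Finset.mem_univ _) h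

end Vale.Agent.P181.R
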