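import Vale.Agent.P181.R.Defs

/-! Words, contents, orbit counting with weights, and the polynomials `pg`.

PLAN.  cont w i is the number of a with w a = i; `Finsupp.toMultiset (cont w) = univ.val.map w`.
exists_perm_of_map_eq: equal fibre cardinalities (`Multiset.count_map`), `Equiv.ofFiberEquiv` with
`Fintype.equivOfCardEq`.  exists_cont: Ω ≃ Σ i, Fin (β i).
orbit_stab: the map H → words, h ↦ w ∘ h, has all nonempty fibres of the size of H ⊓ stab w
(`Finset.card_eq_sum_card_fiberwise`, or let H act by h • w = w ∘ h⁻¹ and use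
`MulAction.card_orbit_mul_card_stabilizer_eq_card_group`); all words in the orbit have conjugate
stabilisers.  polya: swap the sums, ∑ h, ∑ w fixed by h = ∑ w, card (H ⊓ stab w) • φ (q w), group by
z = q w (`Finset.sum_fiberwise`), use orbit_stab.  pg_conj: w ↦ w ∘ h⁻¹.  pg_symm: w ↦ τ ∘ w,
`rename_monomial`, `Finsupp.mapDomain`.  char_Wsub: basis of Wsub by the indicator functions of the
words of content β (or: Wsub ≃ functions on the subtype, `LinearMap.trace_conj'`,
`LinearMap.trace_eq_matrix_trace` with `Pi.basisFun`); both sides count the words of content β fixed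
by g. -/

namespace Vale.Agent.P181.R

open MvPolynomial Equiv

variable {Ω : Type} [Fintype Ω] [DecidableEq Ω] {n : ℕ}

theorem toMultiset_cont (w : Ω → Fin n) : Finsupp.toMultiset (cont w) = Finset.univ.val.map w := by
  unfold cont
  rw [map_sum]
  simp only [Finsupp.toMultiset_single, one_smul]
  have h := Multiset.sum_map_singleton (Finset.univ.val.map w)
  rw [Multiset.map_map] at h
  exact h

theorem monomial_cont (w : Ω → Fin n) :
    (monomial (cont w) 1 : MvPolynomial (Fin n) ℤ) = ∏ a, X (w a) := by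
  unfold cont
  rw [monomial_sum_one]
  rfl

theorem exists_perm_of_map_eq {A : Type*} (w w' : Ω → A)
    (h : Finset.univ.val.map w = Finset.univ.val.map w') : ∃ g : Perm Ω, w' = w ∘ g := by
  classical
  have hc : ∀ c, Fintype.card {a // w' a = c} = Fintype.card {a // w a = c} := fun c => by
    have h1 := congrArg (Multiset.count c) h
    rw [Multiset.count_map, Multiset.count_map] at h1
    rw [Fintype.card_subtype, Fintype.card_subtype]
    simp only [Finset.card, Finset.filter_val]
    simp only [eq_comm (a := c)] at h1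
    exact h1.symm
  refine ⟨Equiv.ofFiberEquiv fun c => Fintype.equivOfCardEq (hc c), ?_⟩
  funext a
  exact (Equiv.ofFiberEquiv_map _ a).symm

theorem exists_perm_of_cont_eq {w w' : Ω → Fin n} (h : cont w = cont w') :
    ∃ g : Perm Ω, w' = w ∘ g := by
  refine exists_perm_of_map_eq w w' ?_
  rw [← toMultiset_cont, ← toMultiset_cont, h]

theorem sum_cont (w : Ω → Fin n) : ∑ i, cont w i = Fintype.card Ω := by
  unfold cont
  simp only [Finsupp.finsetSum_apply, Finsupp.single_apply]
  rw [Finset.sum_comm]
  simp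

theorem exists_cont {β : Fin n → ℕ} (h : ∑ i, β i = Fintype.card Ω) :
    ∃ w : Ω → Fin n, cont w = fs β := by
  have hc : Fintype.card Ω = Fintype.card (Σ i, Fin (β i)) := by
    rw [Fintype.card_sigma, ← h]
    simp
  let e := Fintype.equivOfCardEq hc
  refine ⟨fun a => (e a).1, ?_⟩
  unfold cont
  rw [Equiv.sum_comp e fun s => (Finsupp.single s.1 1 : Fin n →₀ ℕ), Fintype.sum_sigma]
  ext i
  simp [Finsupp.finsetSum_apply, Finsupp.single_apply]

namespace Pol

open Classical in
theorem card_sub (K : Subgroup (Perm Ω)) :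
    Nat.card K = (Finset.univ.filter (· ∈ K)).card :=
  Nat.subtype_card _ (by simp)

theorem trace_funLeft {A : Type} [Fintype A] [DecidableEq A] (φ : A → A) :
    LinearMap.trace ℂ (A → ℂ) (LinearMap.funLeft ℂ ℂ φ) = ∑ a, if φ a = a then 1 else 0 := by
  rw [LinearMap.trace_eq_matrix_trace ℂ (Pi.basisFun ℂ A)]
  unfold Matrix.trace
  refine Finset.sum_congr rfl fun a _ => ?_
  simp [LinearMap.toMatrix_apply, LinearMap.funLeft_apply, Pi.single_apply]

/-- functions supported on the words of content `β` are functions on the subtype -/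
noncomputable def wEquiv (β : Fin n →₀ ℕ) :
    (Wsub Ω β).toSubmodule ≃ₗ[ℂ] ({w : Ω → Fin n // cont w = β} → ℂ) where
  toFun v := fun w => v.1 w.1
  map_add' _ _ := rfl
  map_smul' _ _ := rfl
  invFun u := ⟨fun w => if h : cont w = β then u ⟨w, h⟩ else 0, fun _ hw => dif_neg hw⟩
  left_inv v := by
    apply Subtype.ext
    funext w
    by_cases h : cont w = β
    · exact dif_pos h
    · exact (dif_neg h).trans (v.2 w h).symm
  right_inv u := by
    funext w
    exact dif_pos w.2

end Pol

open Classical in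
theorem orbit_stab (H : Subgroup (Perm Ω)) (w₀ : Ω → Fin n) :
    ∑ w ∈ Finset.univ.filter (fun w : Ω → Fin n => ∃ h ∈ H, w = w₀ ∘ h),
      Nat.card (H ⊓ stab w : Subgroup (Perm Ω)) = Nat.card H := by
  rw [Pol.card_sub H, Finset.card_eq_sum_card_fiberwise (f := fun h : Perm Ω => w₀ ∘ h)
    (t := Finset.univ.filter (fun w : Ω → Fin n => ∃ h ∈ H, w = w₀ ∘ h))]
  · refine Finset.sum_congr rfl fun w hw => ?_
    obtain ⟨h0, hh0, rfl⟩ := (Finset.mem_filter.1 hw).2
    rw [Pol.card_sub]
    refine Finset.card_nbij' (fun k => h0 * k) (fun h => h0⁻¹ * h) ?_ ?_ ?_ ?_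
    · intro k hk
      simp only [Finset.coe_filter, Finset.mem_filter, Finset.mem_univ, true_and,
        Set.mem_setOf_eq, Subgroup.mem_inf, mem_stab] at hk ⊢
      exact ⟨H.mul_mem hh0 hk.1, hk.2⟩
    · intro h hh
      simp only [Finset.coe_filter, Finset.mem_filter, Finset.mem_univ, true_and,
        Set.mem_setOf_eq, Subgroup.mem_inf, mem_stab] at hh ⊢
      refine ⟨H.mul_mem (H.inv_mem hh0) hh.1, ?_⟩
      funext a
      simpa using congrFun hh.2 a
    · intro k _
      simp
    · intro k _
      simp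
  · intro h hh
    simp only [Finset.coe_filter, Finset.mem_univ, true_and, Set.mem_setOf_eq] at hh ⊢
    exact ⟨h, hh, rfl⟩

theorem polya (H : Subgroup (Perm Ω)) {Z : Type} [Fintype Z] (q : (Ω → Fin n) → Z)
    (hq : Function.Surjective q) (hf : ∀ w w', q w = q w' ↔ ∃ h ∈ H, w' = w ∘ h)
    (φ : Z → MvPolynomial (Fin n) ℤ) (hφ : ∀ w, φ (q w) = monomial (cont w) 1) :
    sumH H (pg n) = Nat.card H • ∑ z, φ z := by
  classical
  have h1 : sumH H (pg n) = ∑ w : Ω → Fin n,
      Nat.card (H ⊓ stab w : Subgroup (Perm Ω)) • φ (q w) := by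
    unfold sumH pg
    simp only [Finset.sum_filter]
    have h2 : ∀ g : Perm Ω, (if g ∈ H then ∑ w : Ω → Fin n,
        (if w ∘ g = w then (monomial (cont w) 1 : MvPolynomial (Fin n) ℤ) else 0) else 0) =
        ∑ w : Ω → Fin n, if g ∈ (H ⊓ stab w : Subgroup (Perm Ω)) then φ (q w) else 0 := by
      intro g
      by_cases hg : g ∈ H
      · simp [hg, mem_stab, hφ]
      · simp [hg]
    refine (Finset.sum_congr rfl fun g _ => ?_).trans
      ((Finset.sum_congr rfl fun g _ => h2 g).trans ?_)
    · congr
    rw [Finset.sum_comm]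
    refine Finset.sum_congr rfl fun w _ => ?_
    rw [← Finset.sum_filter, Finset.sum_const, Pol.card_sub]
  rw [h1, ← Finset.sum_fiberwise Finset.univ q, Finset.smul_sum]
  refine Finset.sum_congr rfl fun z _ => ?_
  obtain ⟨w₀, rfl⟩ := hq z
  rw [← orbit_stab H w₀, Finset.sum_smul]
  refine Finset.sum_congr ?_ fun w hw => ?_
  · ext w
    simp only [Finset.mem_filter, Finset.mem_univ, true_and]
    rw [eq_comm, hf]
  · rw [(hf w₀ w).2 (Finset.mem_filter.1 hw).2]

theorem pg_inv (g : Perm Ω) : pg n g⁻¹ = pg n g := by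
  unfold pg
  refine Finset.sum_congr ?_ fun _ _ => rfl
  ext w
  simp only [Finset.mem_filter, Finset.mem_univ, true_and]
  exact (stab w).inv_mem_iff

theorem pg_conj (g h : Perm Ω) : pg n (h⁻¹ * g * h) = pg n g := by
  unfold pg
  refine Finset.sum_nbij' (fun w => w ∘ ⇑h⁻¹) (fun w => w ∘ h) ?_ ?_ ?_ ?_ ?_
  · intro w hw
    simp only [Finset.mem_filter, Finset.mem_univ, true_and] at hw ⊢
    funext a
    simpa using congrFun hw (h⁻¹ a)
  · intro w hw
    simp only [Finset.mem_filter, Finset.mem_univ, true_and] at hw ⊢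
    funext a
    simpa using congrFun hw (h a)
  · intro w _
    funext a
    simp
  · intro w _
    funext a
    simp
  · intro w _
    rw [cont_comp]

theorem pg_symm (g : Perm Ω) : (pg n g).IsSymmetric := by
  intro e
  unfold pg
  rw [map_sum]
  refine Finset.sum_nbij' (fun w => e ∘ w) (fun w => e.symm ∘ w) ?_ ?_ ?_ ?_ ?_
  · intro w hw
    simp only [Finset.mem_filter, Finset.mem_univ, true_and] at hw ⊢
    exact congrArg (fun u => e ∘ u) hw
  · intro w hw
    simp only [Finset.mem_filter, Finset.mem_univ, true_and] at hw ⊢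
    exact congrArg (fun u => e.symm ∘ u) hw
  · intro w _
    funext a
    simp
  · intro w _
    funext a
    simp
  · intro w _
    rw [monomial_cont, monomial_cont, map_prod]
    simp

theorem pg_homog (g : Perm Ω) : (pg n g).IsHomogeneous (Fintype.card Ω) := by
  unfold pg
  refine IsHomogeneous.sum _ _ _ fun w _ => ?_
  rw [monomial_cont]
  have h := IsHomogeneous.prod (Finset.univ : Finset Ω)
    (fun a => (X (w a) : MvPolynomial (Fin n) ℤ)) (fun _ => 1) fun a _ => isHomogeneous_X _ _
  simpa using h

theorem char_Wsub (β : Fin n →₀ ℕ) : (Wsub Ω β).toRepresentation.character = xi Ω β := by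
  classical
  funext g
  have h1 : (Pol.wEquiv β).conj ((Wsub Ω β).toRepresentation g) =
      LinearMap.funLeft ℂ ℂ fun w : {w : Ω → Fin n // cont w = β} =>
        (⟨w.1 ∘ g, (cont_comp w.1 g).trans w.2⟩ : {w : Ω → Fin n // cont w = β}) := by
    refine LinearMap.ext fun u => funext fun w => ?_
    exact dif_pos ((cont_comp w.1 g).trans w.2)
  unfold Representation.character xi pg
  rw [← LinearMap.trace_conj' _ (Pol.wEquiv β), h1, Pol.trace_funLeft, coeff_sum]
  simp only [coeff_monomial, Subtype.ext_iff, Int.cast_sum, Int.cast_ite, Int.cast_one,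
    Int.cast_zero, Finset.sum_filter]
  rw [← Finset.sum_subtype (Finset.univ.filter fun w : Ω → Fin n => cont w = β) (by simp)
    fun w => if w ∘ g = w then (1 : ℂ) else 0, Finset.sum_filter]
  refine Finset.sum_congr rfl fun w _ => ?_
  split_ifs <;> rfl

end Vale.Agent.P181.R
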