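import Vale.Agent.P181.R.Uch
import Vale.Agent.P181.R.PiA
import Vale.Agent.P181.R.PiB
import Vale.Agent.P181.R.PiC

/-! Multiplicities are dimensions; the semigroup property and monotonicity. -/

namespace Vale.Agent.P181.R

open MvPolynomial Equiv

variable {Ω : Type} [Fintype Ω] [DecidableEq Ω] {n a a' d : ℕ}

theorem finrank_fixS_of_char {V : Type} [AddCommGroup V] [Module ℂ V] [FiniteDimensional ℂ V]
    (ρ : Representation ℂ (Perm Ω) V) {l : Fin n → ℕ} (h : ρ.character = chi Ω l)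
    (e : Ω ≃ Fin a × Fin d) : (Module.finrank ℂ (fixS ρ (wr e)) : ℤ) = mult n (pl n a d) l := by
  have h1 := sumH_char ρ (wr e)
  rw [h, sumH_chi _ (wreath e)] at h1
  have h2 : (Nat.card (wr e) : ℂ) ≠ 0 := by exact_mod_cast Nat.card_pos.ne'
  exact_mod_cast (mul_left_cancel₀ h2 h1).symm

/-- The highest weight vectors in the symmetric algebra. -/
noncomputable def hw (e : Ω ≃ Fin a × Fin d) (l : Fin n → ℕ) :
    Submodule ℂ (MvPolynomial (Sym (Fin n) d) ℂ) := (Usub Ω l).toSubmodule.map (pim n e)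

instance (e : Ω ≃ Fin a × Fin d) (l : Fin n → ℕ) : FiniteDimensional ℂ (hw e l) := by
  unfold hw
  infer_instance

theorem finrank_hw (e : Ω ≃ Fin a × Fin d) {l : Fin n → ℕ} (hl : Antitone l) :
    (Module.finrank ℂ (hw e l) : ℤ) = mult n (pl n a d) l := by
  rw [hw, finrank_map_pim]
  exact finrank_fixS_of_char _ (char_Usub hl) e

theorem mult_pl_nonneg (a d : ℕ) {l : Fin n → ℕ} (hl : Antitone l) : 0 ≤ mult n (pl n a d) l := by
  rw [← finrank_hw (Equiv.refl _) hl]
  positivity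

theorem finrank_le_of_map {M N : Type} [AddCommGroup M] [Module ℂ M] [AddCommGroup N] [Module ℂ N]
    {S : Submodule ℂ M} {T : Submodule ℂ N} [FiniteDimensional ℂ T] (f : M →ₗ[ℂ] N)
    (hf : Function.Injective f) (h : ∀ x ∈ S, f x ∈ T) :
    Module.finrank ℂ S ≤ Module.finrank ℂ T :=
  LinearMap.finrank_le_finrank_of_injective (f := f.restrict h)
    fun _ _ e => Subtype.ext (hf (congrArg Subtype.val e))

theorem mult_semigroup {l μ : Fin n → ℕ} (hl : Antitone l) (hμ : Antitone μ)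
    (h : mult n (pl n a' d) μ ≠ 0) :
    mult n (pl n a d) l ≤ mult n (pl n (a + a') d) (l + μ) := by
  obtain ⟨e'', he⟩ := pim_tens_rows (n := n) (Equiv.refl (Fin a × Fin d))
    (Equiv.refl (Fin a' × Fin d))
  rw [← finrank_hw (Equiv.refl _) hμ] at h
  have h1 : hw (Equiv.refl (Fin a' × Fin d)) μ ≠ ⊥ := fun h0 => h (by rw [h0]; simp)
  obtain ⟨_, ⟨v', hv', rfl⟩, hf⟩ := (Submodule.ne_bot_iff _).1 h1
  rw [← finrank_hw (Equiv.refl _) hl, ← finrank_hw e'' (l := l + μ) (hl.add hμ), Int.ofNat_le]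
  refine finrank_le_of_map (LinearMap.mulRight ℂ (pim n (Equiv.refl _) v'))
    (mul_left_injective₀ hf) ?_
  rintro _ ⟨v, hv, rfl⟩
  exact ⟨_, tens_mem hv hv', he v v'⟩

theorem antitone_single [NeZero n] (a : ℕ) : Antitone (Pi.single (0 : Fin n) a : Fin n → ℕ) := by
  intro i j hij
  rcases eq_or_ne j 0 with rfl | hj
  · rw [nonpos_iff_eq_zero.1 hij]
  · simp [hj]

theorem mult_mono [NeZero n] {l : Fin n → ℕ} (hl : Antitone l) :
    mult n (pl n a d) l ≤ mult n (pl n a (d + 1)) (l + Pi.single 0 a) := by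
  obtain ⟨e'', he⟩ := pim_tens_col (n := n) (Equiv.refl (Fin a × Fin d))
  have h1 : Antitone (l + (Pi.single (0 : Fin n) a : Fin n → ℕ)) := hl.add (antitone_single a)
  rw [← finrank_hw (Equiv.refl _) hl, ← finrank_hw e'' h1, Int.ofNat_le]
  refine finrank_le_of_map (rename (Sym.cons (0 : Fin n))).toLinearMap
    (rename_injective _ fun s t h => (Sym.cons_inj_right _ _ _).1 h) ?_
  rintro _ ⟨v, hv, rfl⟩
  exact ⟨_, tens_mem hv (single_mem a), he v⟩

end Vale.Agent.P181.R

namespace Vale.Agent.P181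

theorem repFacts : RepFacts where
  nonnegN b _ hl := R.mult_pl_nonneg b 6 hl
  semigroup _ _ _ _ hl hμ h := R.mult_semigroup hl hμ h
  nonnegM b _ hl := R.mult_pl_nonneg 6 b hl
  monoM _ _ hl := R.mult_mono hl

end Vale.Agent.P181
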