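import Vale.Agent.P181.R.Defs

/-! Expansion of the alternant formula, and the Jacobi-Trudi identity.

PLAN.  alt_eq_sum: `Matrix.det_apply'` on the transpose (`Matrix.det_transpose`), and
∏ i, X i ^ ν (σ i) = monomial (fs (ν ∘ σ)) 1 (`monomial_eq`, `Finsupp.prod_fintype`).
mult_eq_sum: `coeff_monomial_mul'`; fs (rho ∘ σ) ≤ fs (l + rho) iff all sh l σ i ≥ 0, and then the
difference is (sh l σ i).toNat (omega, with i < n, σ i < n).
jacobi_trudi: in the power series ring over MvPolynomial let H = mk (hsymm) and, for a variable i,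
E i = ∏ j ∈ univ.erase i, (1 - C (X j) * T), a polynomial of degree < n.  First
H * ∏ j, (1 - C (X j) * T) = 1 (prove hsymm k = ∑ over finsupps of degree k of monomial, or induct on
the finset of variables; `PowerSeries.mk_one_mul_one_sub_eq_one`-like geometric series,
`PowerSeries.coeff_prod`; `Sym.equivNatSum` / `Finsupp.toMultiset` relate Sym to finsupps), so
H * E i = mk (fun m => X i ^ m), i.e. X i ^ m = ∑ k : Fin n, M i k * hz (m - rho k) with
M i k = coeff (rho k) (E i).  Hence alt ν = det M * det (hz (ν j - rho k)) for every ν.  For ν = rho the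
second matrix is triangular with diagonal 1 (`Matrix.det_of_upperTriangular` or lower), so
det M = alt rho; for ν = l + rho it is the transpose of the matrix defining schur. -/

namespace Vale.Agent.P181.R

open MvPolynomial Equiv

variable {n : ℕ}

namespace SymA

theorem prod_X_pow (ν : Fin n → ℕ) :
    ∏ i, (X i : MvPolynomial (Fin n) ℤ) ^ ν i = monomial (fs ν) 1 := by
  rw [monomial_eq, C_1, one_mul, Finsupp.prod_fintype _ _ (by simp)]
  rfl

/-- The geometric series of `a`. -/
noncomputable def geo {R : Type*} [CommRing R] (a : R) : PowerSeries R :=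
  PowerSeries.mk fun m => a ^ m

theorem geo_mul {R : Type*} [CommRing R] (a : R) :
    geo a * (1 - PowerSeries.C a * PowerSeries.X) = 1 := by
  ext m
  rw [mul_sub, mul_one, ← mul_assoc, map_sub]
  rcases m with _ | m
  · simp [geo]
  · rw [PowerSeries.coeff_succ_mul_X, PowerSeries.coeff_mul_C]
    simp [geo, PowerSeries.coeff_one, pow_succ]

theorem hsymm_eq (k : ℕ) : hsymm (Fin n) ℤ k =
    ∑ l ∈ Finset.finsuppAntidiag (Finset.univ : Finset (Fin n)) k,
      ∏ i, (X i : MvPolynomial (Fin n) ℤ) ^ l i := by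
  unfold hsymm
  refine Finset.sum_bij (fun s _ => Multiset.toFinsupp s.1) ?_ ?_ ?_ ?_
  · intro s _
    rw [Finset.mem_finsuppAntidiag]
    refine ⟨?_, Finset.subset_univ _⟩
    have h := Multiset.sum_count_eq_card (s := (Finset.univ : Finset (Fin n))) (m := s.1) (by simp)
    rw [s.2] at h
    exact h
  · intro s _ t _ h
    exact Subtype.ext (Multiset.toFinsupp.injective h)
  · intro l hl
    have h : Multiset.card (Finsupp.toMultiset l) = k := by
      rw [Finset.mem_finsuppAntidiag] at hl
      rw [Finsupp.card_toMultiset, Finsupp.sum_fintype _ _ (by simp)]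
      exact hl.1
    exact ⟨⟨Finsupp.toMultiset l, h⟩, Finset.mem_univ _, Finsupp.toMultiset_toFinsupp l⟩
  · intro s _
    rw [Finset.prod_multiset_map_count]
    simp only [Multiset.toFinsupp_apply]
    refine Finset.prod_subset (Finset.subset_univ _) fun i _ hi => ?_
    rw [Multiset.mem_toFinset] at hi
    rw [Multiset.count_eq_zero_of_notMem hi, pow_zero]

theorem mk_hsymm : PowerSeries.mk (hsymm (Fin n) ℤ) =
    ∏ i, geo (X i : MvPolynomial (Fin n) ℤ) := by
  ext1 k
  rw [PowerSeries.coeff_prod, PowerSeries.coeff_mk, hsymm_eq]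
  simp [geo]

/-- The product of the other linear factors. -/
noncomputable def ee (i : Fin n) : Polynomial (MvPolynomial (Fin n) ℤ) :=
  ∏ j ∈ Finset.univ.erase i, (1 - Polynomial.C (X j) * Polynomial.X)

theorem ee_natDegree (i : Fin n) : (ee i).natDegree ≤ n - 1 := by
  unfold ee
  refine (Polynomial.natDegree_prod_le _ _).trans ?_
  refine (Finset.sum_le_card_nsmul _ _ 1 fun j _ => ?_).trans ?_
  · compute_degree
  · simp

theorem ee_mul (i : Fin n) :
    (ee i : PowerSeries (MvPolynomial (Fin n) ℤ)) * PowerSeries.mk (hsymm (Fin n) ℤ) =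
      geo (X i) := by
  have h1 : (ee i : PowerSeries (MvPolynomial (Fin n) ℤ)) =
      ∏ j ∈ Finset.univ.erase i, (1 - PowerSeries.C (X j) * PowerSeries.X) := by
    rw [← Polynomial.coeToPowerSeries.ringHom_apply, ee, map_prod]
    refine Finset.prod_congr rfl fun j _ => ?_
    simp [Polynomial.coeToPowerSeries.ringHom_apply]
  rw [h1, mk_hsymm, ← Finset.mul_prod_erase _ _ (Finset.mem_univ i), mul_left_comm,
    ← Finset.prod_mul_distrib, Finset.prod_eq_one, mul_one]
  intro j _
  rw [mul_comm, geo_mul]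

theorem X_pow_eq (i : Fin n) (m : ℕ) : (X i : MvPolynomial (Fin n) ℤ) ^ m =
    ∑ k : Fin n, (ee i).coeff (rho n k) * hz n ((m : ℤ) - (rho n k : ℕ)) := by
  have h1 := congrArg (PowerSeries.coeff m) (ee_mul i)
  rw [geo, PowerSeries.coeff_mk, PowerSeries.coeff_mul,
    Finset.Nat.sum_antidiagonal_eq_sum_range_succ_mk] at h1
  simp only [Polynomial.coeff_coe, PowerSeries.coeff_mk] at h1
  rw [← h1]
  set g : ℕ → MvPolynomial (Fin n) ℤ := fun a => (ee i).coeff a * hz n ((m : ℤ) - (a : ℕ)) with hg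
  have h2 : ∑ k : Fin n, (ee i).coeff (rho n k) * hz n ((m : ℤ) - (rho n k : ℕ)) =
      ∑ a ∈ Finset.range n, g a := by
    rw [← Finset.sum_range_reflect, ← Fin.sum_univ_eq_sum_range (fun a => g (n - 1 - a))]
    rfl
  have h3 : ∑ a ∈ Finset.range m.succ, (ee i).coeff a * hsymm (Fin n) ℤ (m - a) =
      ∑ a ∈ Finset.range m.succ, g a := by
    refine Finset.sum_congr rfl fun a ha => ?_
    have ha' : a ≤ m := Nat.lt_succ_iff.mp (Finset.mem_range.mp ha)
    have h0 : (0 : ℤ) ≤ (m : ℤ) - (a : ℕ) := by omega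
    have h4 : ((m : ℤ) - (a : ℕ)).toNat = m - a := by omega
    simp only [hg, hz, h0, if_true, h4]
  rw [h2, h3]
  have h5 : ∑ a ∈ Finset.range m.succ, g a = ∑ a ∈ Finset.range (m.succ + n), g a := by
    refine Finset.sum_subset (Finset.range_mono (by omega)) fun a _ ha => ?_
    have h0 : ¬ (0 : ℤ) ≤ (m : ℤ) - (a : ℕ) := by
      simp only [Finset.mem_range] at ha
      omega
    simp only [hg, hz, h0, if_false, mul_zero]
  have h6 : ∑ a ∈ Finset.range n, g a = ∑ a ∈ Finset.range (m.succ + n), g a := by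
    refine Finset.sum_subset (Finset.range_mono (by omega)) fun a _ ha => ?_
    have h0 : (ee i).natDegree < a := by
      simp only [Finset.mem_range] at ha
      have := ee_natDegree i
      have := i.2
      omega
    simp only [hg, Polynomial.coeff_eq_zero_of_natDegree_lt h0, zero_mul]
  rw [h5, h6]

theorem alt_eq_mul (ν : Fin n → ℕ) : alt n ν =
    (Matrix.of fun i k : Fin n => (ee i).coeff (rho n k)).det *
      (Matrix.of fun k j : Fin n => hz n ((ν j : ℤ) - (rho n k : ℕ))).det := by
  rw [← Matrix.det_mul, alt]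
  congr 1
  ext1 i j
  rw [Matrix.mul_apply, Matrix.of_apply, X_pow_eq]
  rfl

theorem det_rho :
    (Matrix.of fun k j : Fin n => hz n ((rho n j : ℤ) - (rho n k : ℕ))).det = 1 := by
  rw [Matrix.det_of_isLowerTriangular]
  · refine Finset.prod_eq_one fun i _ => ?_
    simp [hz]
  · intro k j hkj
    have hkj' : k < j := hkj
    have h0 : ¬ (0 : ℤ) ≤ (rho n j : ℤ) - (rho n k : ℕ) := by
      have := j.2
      have : (k : ℕ) < j := hkj'
      simp only [rho]
      omega
    simp only [Matrix.of_apply, hz, h0, if_false]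

end SymA

theorem alt_eq_sum (ν : Fin n → ℕ) :
    alt n ν = ∑ σ : Perm (Fin n), monomial (fs (ν ∘ σ)) ((Perm.sign σ : ℤˣ) : ℤ) := by
  rw [alt, ← Matrix.det_transpose, Matrix.det_apply']
  refine Finset.sum_congr rfl fun σ _ => ?_
  simp only [Matrix.transpose_apply, Matrix.of_apply]
  rw [show (∏ i, (X i : MvPolynomial (Fin n) ℤ) ^ ν (σ i)) = monomial (fs (ν ∘ σ)) 1 from
    SymA.prod_X_pow (ν ∘ σ), ← eq_intCast (C : ℤ →+* MvPolynomial (Fin n) ℤ), C_mul_monomial,
    mul_one]

theorem mult_eq_sum (f : MvPolynomial (Fin n) ℤ) (l : Fin n → ℕ) :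
    mult n f l = ∑ σ : Perm (Fin n), ((Perm.sign σ : ℤˣ) : ℤ) * coeffZ (sh l σ) f := by
  rw [mult, alt_eq_sum, Finset.sum_mul, coeff_sum]
  refine Finset.sum_congr rfl fun σ _ => ?_
  rw [coeff_monomial_mul', coeffZ]
  have hiff : fs (rho n ∘ σ) ≤ fs (l + rho n) ↔ ∀ i, 0 ≤ sh l σ i := by
    rw [Finsupp.le_def]
    refine forall_congr' fun i => ?_
    have := i.2
    have := (σ i).2
    simp only [fs_apply, Function.comp, Pi.add_apply, rho, sh]
    omega
  by_cases h : ∀ i, 0 ≤ sh l σ i
  · rw [if_pos (hiff.mpr h), if_pos h]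
    congr 2
    ext i
    have := i.2
    have := (σ i).2
    have := h i
    simp only [Finsupp.coe_tsub, Pi.sub_apply, fs_apply, Function.comp, Pi.add_apply, rho, sh] at *
    omega
  · rw [if_neg (fun h' => h (hiff.mp h')), if_neg h, mul_zero]

theorem schur_eq_sum (l : Fin n → ℕ) :
    schur n l = ∑ σ : Perm (Fin n), ((Perm.sign σ : ℤˣ) : ℤ) • ∏ i, hz n (sh l σ i) := by
  rw [schur, ← Matrix.det_transpose, Matrix.det_apply']
  refine Finset.sum_congr rfl fun σ _ => ?_
  simp only [Matrix.transpose_apply, Matrix.of_apply, sh, zsmul_eq_mul]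

theorem jacobi_trudi (l : Fin n → ℕ) : alt n (rho n) * schur n l = alt n (l + rho n) := by
  rw [SymA.alt_eq_mul (rho n), SymA.det_rho, mul_one, SymA.alt_eq_mul (l + rho n), schur,
    ← Matrix.det_transpose (Matrix.of fun i j : Fin n => hz n ((l i : ℤ) - (i : ℕ) + (j : ℕ)))]
  congr 2
  ext1 k j
  have := k.2
  have := j.2
  simp only [Matrix.transpose_apply, Matrix.of_apply, Pi.add_apply, rho]
  congr 1
  omega

end Vale.Agent.P181.R
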