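import Vale.Agent.P181.R.SymA

/-! Coefficients of alternants and the leading monomial of a Schur polynomial.

PLAN.  coeff_alt: by alt_eq_sum; if ν ∘ σ = μ with both strictly antitone then σ is strictly monotone,
hence σ = 1 (`StrictMono` self-map of `Fin n`: `StrictMono.id_le`/`Subsingleton.elim` on `≃o`).
Lex: use m = MonomialOrder.lex (toSyn is toLex).  For strictly antitone ν and σ ≠ 1,
toLex (fs (ν ∘ σ)) < toLex (fs ν) (least i with σ i ≠ i has i < σ i; `Finsupp.Lex.lt_iff`), so
m.degree (alt n ν) = fs ν with leading coefficient 1.  From jacobi_trudi, `MonomialOrder.degree_mul` and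
`leadingCoeff_mul`: m.degree (schur n l) = fs l and its leading coefficient is 1;
`MonomialOrder.le_degree`. -/

namespace Vale.Agent.P181.R

open MvPolynomial Equiv

variable {n : ℕ}

theorem strictAnti_add_rho {l : Fin n → ℕ} (hl : Antitone l) : StrictAnti (l + rho n) := by
  intro i j hij
  have h1 := hl hij.le
  have h2 : (i : ℕ) < j := hij
  have h3 := j.2
  change l j + (n - 1 - j) < l i + (n - 1 - i)
  omega

namespace SymB

theorem lex_lt {ν : Fin n → ℕ} (hν : StrictAnti ν) {σ : Perm (Fin n)} (hσ : σ ≠ 1) :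
    toLex (fs (ν ∘ σ)) < toLex (fs ν) := by
  have hne : (Finset.univ.filter fun i => σ i ≠ i).Nonempty := by
    by_contra hc
    refine hσ (Equiv.ext fun i => ?_)
    by_contra h
    exact hc ⟨i, Finset.mem_filter.2 ⟨Finset.mem_univ _, h⟩⟩
  obtain ⟨i, hi, hmin⟩ := Finset.exists_min_image _ (fun i => i) hne
  have hi' : σ i ≠ i := (Finset.mem_filter.1 hi).2
  have hfix : ∀ j < i, σ j = j := fun j hj => by
    by_contra h
    exact absurd (hmin j (Finset.mem_filter.2 ⟨Finset.mem_univ _, h⟩)) (not_le.2 hj)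
  have hlt : i < σ i := by
    rcases lt_trichotomy i (σ i) with h | h | h
    · exact h
    · exact absurd h.symm hi'
    · exact absurd (σ.injective (hfix _ h)) hi'
  refine Finsupp.Lex.lt_iff.2 ⟨i, fun j hj => ?_, hν hlt⟩
  change ν (σ j) = ν j
  rw [hfix j hj]

theorem eq_one {ν : Fin n → ℕ} (hν : StrictAnti ν) {σ : Perm (Fin n)}
    (hμ : StrictAnti (ν ∘ σ)) : σ = 1 := by
  by_contra hσ
  have h1 := lex_lt hν hσ
  have h2 := lex_lt hμ (inv_ne_one.2 hσ)
  have e : (ν ∘ σ) ∘ ⇑σ⁻¹ = ν := by
    funext i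
    simp
  rw [e] at h2
  exact lt_asymm h1 h2

theorem le_of_mem {ν : Fin n → ℕ} (hν : StrictAnti ν) {β : Fin n →₀ ℕ}
    (h : coeff β (alt n ν) ≠ 0) : toLex β ≤ toLex (fs ν) := by
  rw [alt_eq_sum, coeff_sum] at h
  obtain ⟨σ, -, hσ⟩ := Finset.exists_ne_zero_of_sum_ne_zero h
  rw [coeff_monomial] at hσ
  have e : fs (ν ∘ σ) = β := by
    by_contra hc
    exact hσ (if_neg hc)
  rw [← e]
  by_cases h1 : σ = 1
  · subst h1
    exact le_rfl
  · exact (lex_lt hν h1).le

theorem rho_anti : StrictAnti (rho n) := by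
  have h := strictAnti_add_rho (n := n) (l := 0) antitone_const
  rwa [zero_add] at h

end SymB

theorem coeff_alt {ν μ : Fin n → ℕ} (hν : StrictAnti ν) (hμ : StrictAnti μ) :
    coeff (fs μ) (alt n ν) = if μ = ν then 1 else 0 := by
  rw [alt_eq_sum, coeff_sum, Finset.sum_eq_single (1 : Perm (Fin n))]
  · rw [coeff_monomial]
    by_cases h : μ = ν
    · subst h
      simp
    · rw [if_neg h, if_neg]
      intro hc
      exact h (fs_injective hc).symm
  · intro σ _ hσ
    rw [coeff_monomial, if_neg]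
    intro hc
    have e := fs_injective hc
    exact hσ (SymB.eq_one hν (e ▸ hμ))
  · intro h
    exact absurd (Finset.mem_univ _) h

theorem alt_rho_ne_zero : alt n (rho n) ≠ 0 := by
  intro h
  have h1 := coeff_alt (n := n) SymB.rho_anti SymB.rho_anti
  rw [h, coeff_zero, if_pos rfl] at h1
  exact zero_ne_one h1

theorem mult_schur {l μ : Fin n → ℕ} (hl : Antitone l) (hμ : Antitone μ) :
    mult n (schur n μ) l = if l = μ then 1 else 0 := by
  rw [mult, jacobi_trudi, coeff_alt (strictAnti_add_rho hμ) (strictAnti_add_rho hl)]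
  simp only [add_left_inj]

namespace SymB

theorem degree_alt {ν : Fin n → ℕ} (hν : StrictAnti ν) :
    MonomialOrder.lex.degree (alt n ν) = fs ν := by
  have h1 : coeff (fs ν) (alt n ν) = 1 := by rw [coeff_alt hν hν, if_pos rfl]
  have h2 : toLex (fs ν) ≤ toLex (MonomialOrder.lex.degree (alt n ν)) :=
    MonomialOrder.lex_le_iff.1
      (MonomialOrder.le_degree (mem_support_iff.2 (by rw [h1]; exact one_ne_zero)))
  have h3 : toLex (MonomialOrder.lex.degree (alt n ν)) ≤ toLex (fs ν) :=
    MonomialOrder.lex_le_iff.1 (MonomialOrder.degree_le_iff.2 fun c hc =>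
      MonomialOrder.lex_le_iff.2 (le_of_mem hν (mem_support_iff.1 hc)))
  exact toLex.injective (le_antisymm h3 h2)

theorem lc_alt {ν : Fin n → ℕ} (hν : StrictAnti ν) :
    MonomialOrder.lex.leadingCoeff (alt n ν) = 1 := by
  rw [MonomialOrder.leadingCoeff, degree_alt hν, coeff_alt hν hν, if_pos rfl]

theorem lc_schur {l : Fin n → ℕ} (hl : Antitone l) :
    MonomialOrder.lex.leadingCoeff (schur n l) = 1 := by
  have h := lc_alt (strictAnti_add_rho hl)
  rwa [← jacobi_trudi, MonomialOrder.leadingCoeff_mul, lc_alt rho_anti, one_mul] at h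

theorem degree_schur {l : Fin n → ℕ} (hl : Antitone l) :
    MonomialOrder.lex.degree (schur n l) = fs l := by
  have hne : schur n l ≠ 0 := by
    intro h
    have h1 := lc_schur hl
    rw [h, MonomialOrder.leadingCoeff_zero] at h1
    exact zero_ne_one h1
  have h := degree_alt (strictAnti_add_rho hl)
  rw [← jacobi_trudi, MonomialOrder.degree_mul alt_rho_ne_zero hne, degree_alt rho_anti, fs_add,
    add_comm] at h
  exact add_right_cancel h

end SymB

theorem coeff_schur_self {l : Fin n → ℕ} (hl : Antitone l) : coeff (fs l) (schur n l) = 1 := by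
  have h := SymB.lc_schur hl
  rwa [MonomialOrder.leadingCoeff, SymB.degree_schur hl] at h

theorem le_of_coeff_schur {l : Fin n → ℕ} (hl : Antitone l) {β : Fin n →₀ ℕ}
    (h : coeff β (schur n l) ≠ 0) : toLex β ≤ toLex (fs l) := by
  rw [← SymB.degree_schur hl]
  exact MonomialOrder.lex_le_iff.1 (MonomialOrder.le_degree (mem_support_iff.2 h))

end Vale.Agent.P181.R
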