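import Vale.Agent.P181.R.SymB

/-! A homogeneous symmetric polynomial is a combination of Schur polynomials.

PLAN.  alt n ν is homogeneous of degree ∑ ν (alt_eq_sum), which gives mult_eq_zero_of_homog
(`IsHomogeneous.mul`, `IsHomogeneous.coeff_eq_zero`).  rename σ (alt n ν) = sign σ • alt n ν.
Call D antisymmetric if rename σ D = sign σ • D for all σ; then coeff (fs (ν ∘ σ)) D = ± coeff (fs ν) D
(`coeff_rename_mapDomain`).  An antisymmetric D whose coefficients at all fs (l + rho), l antitone,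
vanish is zero: a non-injective exponent has coefficient c = -c (swap), an injective one is sorted
(`Tuple.sort`, composed with `Fin.revPerm`) to a strictly antitone ν, and ν = l + rho with
l i = ν i - rho i antitone (ν i ≥ n - 1 - i, consecutive differences ≥ 1).  Apply this to
D = alt rho * (f - ∑ ...) using multL, mult_schur, jacobi_trudi, and cancel alt rho ≠ 0. -/

namespace Vale.Agent.P181.R

open MvPolynomial Equiv

variable {n : ℕ}

namespace SymC

theorem degree_fs (ν : Fin n → ℕ) : Finsupp.degree (fs ν) = ∑ i, ν i := by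
  rw [Finsupp.degree_eq_sum]
  rfl

theorem alt_homog (ν : Fin n → ℕ) : (alt n ν).IsHomogeneous (∑ i, ν i) := by
  rw [alt_eq_sum]
  refine IsHomogeneous.sum _ _ _ fun σ _ => isHomogeneous_monomial _ ?_
  rw [degree_fs]
  exact Equiv.sum_comp σ ν

theorem rename_alt (σ : Perm (Fin n)) (ν : Fin n → ℕ) :
    rename σ (alt n ν) = ((Perm.sign σ : ℤˣ) : ℤ) • alt n ν := by
  unfold alt
  rw [AlgHom.map_det, zsmul_eq_mul, ← Matrix.det_permute]
  congr 1
  ext1 i j
  simp

/-- Antisymmetric polynomials. -/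
def Anti (D : MvPolynomial (Fin n) ℤ) : Prop :=
  ∀ σ : Perm (Fin n), rename σ D = ((Perm.sign σ : ℤˣ) : ℤ) • D

theorem Anti.coeff_comp {D : MvPolynomial (Fin n) ℤ} (hD : Anti D) (σ : Perm (Fin n))
    (ν : Fin n → ℕ) : coeff (fs (ν ∘ σ)) D = ((Perm.sign σ : ℤˣ) : ℤ) * coeff (fs ν) D := by
  have h1 : Finsupp.mapDomain σ (fs (ν ∘ σ)) = fs ν := by
    ext i
    rw [Finsupp.mapDomain_equiv_apply]
    simp
  rw [← coeff_rename_mapDomain σ σ.injective D (fs (ν ∘ σ)), h1, hD σ, coeff_smul, smul_eq_mul]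

theorem exists_add_rho {μ : Fin n → ℕ} (hμ : StrictAnti μ) :
    ∃ l : Fin n → ℕ, Antitone l ∧ μ = l + rho n := by
  have gap : ∀ (k : ℕ) (i j : Fin n), (j : ℕ) = i + k → μ j + k ≤ μ i := by
    intro k
    induction k with
    | zero =>
      intro i j h
      have : j = i := Fin.ext h
      rw [this]
      exact le_rfl
    | succ k ih =>
      intro i j h
      have hj := j.2
      have h1 := ih i ⟨i + k, by omega⟩ rfl
      have h2 : μ j < μ ⟨i + k, by omega⟩ := hμ (by rw [Fin.lt_def]; simp only; omega)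
      omega
  have low : ∀ i : Fin n, n - 1 - i ≤ μ i := by
    intro i
    have hi := i.2
    have := gap (n - 1 - i) i ⟨n - 1, by omega⟩ (by simp only; omega)
    omega
  refine ⟨fun i => μ i - (n - 1 - i), fun i j hij => ?_, ?_⟩
  · have hij' : (i : ℕ) ≤ j := hij
    have h1 := gap (j - i) i j (by omega)
    have h2 := low j
    have hj := j.2
    simp only
    omega
  · funext i
    have := low i
    simp only [Pi.add_apply, rho]
    omega

theorem Anti.eq_zero {D : MvPolynomial (Fin n) ℤ} (hD : Anti D)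
    (h : ∀ l : Fin n → ℕ, Antitone l → coeff (fs (l + rho n)) D = 0) : D = 0 := by
  ext β
  rw [coeff_zero, ← fs_coe β]
  generalize (⇑β : Fin n → ℕ) = ν
  by_cases hν : Function.Injective ν
  · have h1 : StrictMono (ν ∘ Tuple.sort ν) :=
      (Tuple.monotone_sort ν).strictMono_of_injective (hν.comp (Tuple.sort ν).injective)
    have h2 : StrictAnti (ν ∘ ⇑(Tuple.sort ν * Fin.revPerm : Perm (Fin n))) := fun i j hij =>
      h1 (Fin.rev_lt_rev.mpr hij)
    obtain ⟨l, hl, e⟩ := exists_add_rho h2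
    have h3 := hD.coeff_comp (Tuple.sort ν * Fin.revPerm) ν
    rw [e, h l hl] at h3
    exact (mul_eq_zero.mp h3.symm).resolve_left (Units.ne_zero _)
  · obtain ⟨i, j, hij, hne⟩ : ∃ i j, ν i = ν j ∧ i ≠ j := by
      by_contra hc
      exact hν fun i j hij => by_contra fun hne => hc ⟨i, j, hij, hne⟩
    have h1 : ν ∘ swap i j = ν := by
      funext k
      exact apply_swap_eq_self hij k
    have h3 := hD.coeff_comp (swap i j) ν
    rw [h1, Perm.sign_swap hne] at h3
    simp only [Units.val_neg, Units.val_one] at h3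
    omega

theorem anti_alt (ν : Fin n → ℕ) : Anti (alt n ν) := fun σ => rename_alt σ ν

theorem Anti.mul {D f : MvPolynomial (Fin n) ℤ} (hD : Anti D) (hf : f.IsSymmetric) :
    Anti (D * f) := fun σ => by
  rw [map_mul, hD σ, hf σ, smul_mul_assoc]

theorem Anti.sub {D E : MvPolynomial (Fin n) ℤ} (hD : Anti D) (hE : Anti E) : Anti (D - E) :=
  fun σ => by rw [map_sub, hD σ, hE σ, smul_sub]

theorem Anti.smul {D : MvPolynomial (Fin n) ℤ} (hD : Anti D) (c : ℤ) : Anti (c • D) :=
  fun σ => by rw [map_zsmul, hD σ, smul_comm]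

theorem Anti.sum {ι : Type} (s : Finset ι) {D : ι → MvPolynomial (Fin n) ℤ}
    (hD : ∀ i ∈ s, Anti (D i)) : Anti (∑ i ∈ s, D i) := fun σ => by
  rw [map_sum, Finset.smul_sum]
  exact Finset.sum_congr rfl fun i hi => hD i hi σ

end SymC

theorem mult_eq_zero_of_homog {f : MvPolynomial (Fin n) ℤ} {N : ℕ} (hf : f.IsHomogeneous N)
    {l : Fin n → ℕ} (h : ∑ i, l i ≠ N) : mult n f l = 0 := by
  refine ((SymC.alt_homog (rho n)).mul hf).coeff_eq_zero ?_
  rw [SymC.degree_fs]
  simp only [Pi.add_apply, Finset.sum_add_distrib]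
  omega

theorem eq_sum_schur {f : MvPolynomial (Fin n) ℤ} {N : ℕ} (hs : f.IsSymmetric)
    (hf : f.IsHomogeneous N) : f = ∑ l ∈ par n N, mult n f l • schur n l := by
  classical
  have h1 : SymC.Anti (alt n (rho n) * (f - ∑ l ∈ par n N, mult n f l • schur n l)) := by
    rw [mul_sub, Finset.mul_sum]
    refine ((SymC.anti_alt _).mul hs).sub (SymC.Anti.sum _ fun l _ => ?_)
    rw [mul_smul_comm, jacobi_trudi]
    exact (SymC.anti_alt _).smul _
  have h2 := h1.eq_zero fun l hl => by
    change multL n l (f - ∑ l ∈ par n N, mult n f l • schur n l) = 0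
    rw [map_sub, map_sum, sub_eq_zero, multL_apply]
    have h3 : ∀ μ ∈ par n N, multL n l (mult n f μ • schur n μ) =
        if l = μ then mult n f μ else 0 := by
      intro μ hμ
      rw [map_smul, multL_apply, mult_schur hl (mem_par.mp hμ).1, smul_eq_mul, mul_ite, mul_one,
        mul_zero]
    rw [Finset.sum_congr rfl h3, Finset.sum_ite_eq]
    split_ifs with hm
    · rfl
    · exact mult_eq_zero_of_homog hf fun e => hm (mem_par.mpr ⟨hl, e⟩)
  exact sub_eq_zero.mp ((mul_eq_zero.mp h2).resolve_left alt_rho_ne_zero)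

end Vale.Agent.P181.R
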