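import Vale.Agent.P181.R.Semi
import Vale.Agent.P181.R.Brg
import Vale.Agent.P181.R.Imp

/-! From the multiplicity inequalities to an equivariant injection, and the sixth case. -/

namespace Vale.Agent.P181

open R MvPolynomial Equiv

/-- If all multiplicities of `h_a[h_b]` in `a` variables are at most those of `h_b[h_a]`, there is an
equivariant injection for every `V`. -/
theorem inj_of_mult {a b : ℕ} (ha : 0 < a) (hb : 0 < b)
    (h : ∀ l : Fin a → ℕ, Antitone l → mult a (pl a a b) l ≤ mult a (pl a b a) l)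
    (V : Type*) [AddCommGroup V] [Module ℂ V] [FiniteDimensional ℂ V] :
    ∃ Ψ : SymmetricPower ℂ (Fin a) (SymmetricPower ℂ (Fin b) V) →
        SymmetricPower ℂ (Fin b) (SymmetricPower ℂ (Fin a) V),
      IsLinearMap ℂ Ψ ∧ IsGLEquivariant ℂ a b V Ψ ∧ Function.Injective Ψ := by
  obtain ⟨x, c, h1, h2⟩ := exists_elems (wr (Equiv.refl (Fin a × Fin b)))
    (wr (Equiv.prodComm (Fin a) (Fin b))) (by
      intro X _ _ _ τ hτ
      rcases Nat.eq_zero_or_pos (Module.finrank ℂ (fixS τ (wr (Equiv.refl (Fin a × Fin b)))))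
        with h0 | h0
      · rw [h0]
        exact Nat.zero_le _
      have h3 : fixS τ (wr (Equiv.refl (Fin a × Fin b))) ≤
          fixS τ (stab fun p => (Equiv.refl (Fin a × Fin b) p).1) := fun v hv =>
        mem_fixS.2 fun g hg => mem_fixS.1 hv g (stab_le_wr _ hg)
      have h4 := lt_of_lt_of_le h0 (Submodule.finrank_mono h3)
      have h5 := ip_xi_eq τ fun p => (Equiv.refl (Fin a × Fin b) p).1
      obtain ⟨l, hl, -, e⟩ := eq_chi_of_ip ⟨X, _, _, inferInstance, τ, hτ, rfl⟩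
        (h5.trans_ne (by exact_mod_cast h4.ne'))
      have h6 := h l (mem_par.1 hl).1
      rw [← finrank_fixS_of_char τ e (Equiv.refl _),
        ← finrank_fixS_of_char τ e (Equiv.prodComm _ _)] at h6
      exact_mod_cast h6)
  obtain ⟨Ψ, hΨ, he⟩ := exists_equivariant _ _ hb ha x c h1 h2 V
  exact ⟨Ψ, Ψ.isLinear, fun g y => DFunLike.congr_fun (he g.toLinearMap) y, hΨ⟩

theorem six_of_check (hc : FiniteCheck) (b : ℕ) (hb : 6 ≤ b)
    (V : Type*) [AddCommGroup V] [Module ℂ V] [FiniteDimensional ℂ V] :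
    ∃ Ψ : SymmetricPower ℂ (Fin 6) (SymmetricPower ℂ (Fin b) V) →
        SymmetricPower ℂ (Fin b) (SymmetricPower ℂ (Fin 6) V),
      IsLinearMap ℂ Ψ ∧ IsGLEquivariant ℂ 6 b V Ψ ∧ Function.Injective Ψ := by
  rcases hb.eq_or_lt with rfl | h6
  · exact ⟨id, LinearMap.id.isLinear, fun _ _ => rfl, Function.injective_id⟩
  rcases le_or_gt b 24 with h24 | h24
  · exact inj_of_mult (by norm_num) (by omega) (fun l hl => hc b l h6 h24 hl) V
  · obtain ⟨⟨Ψ, h1, -, h2, h3⟩, -⟩ := square_stabilization (K := ℂ) (V := V) 6 b h24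
    exact ⟨Ψ, h1, h2, h3⟩

end Vale.Agent.P181
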