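import Vale.Agent.P181.R.Orth

/-! The character of the module of highest weight vectors. -/

namespace Vale.Agent.P181.R

open MvPolynomial Equiv

variable {Ω : Type} [Fintype Ω] [DecidableEq Ω] {n : ℕ}

theorem ip_sum_nat {s : Multiset (Perm Ω → ℂ)} (hs : ∀ ψ ∈ s, IsIrr ψ) (β : Fin n →₀ ℕ) :
    ∃ m : ℕ, ip s.sum (xi Ω β) = m := by
  induction s using Multiset.induction_on with
  | empty => exact ⟨0, by simp [ip]⟩
  | cons ψ s ih =>
    obtain ⟨m, hm⟩ := ih fun φ hφ => hs φ (Multiset.mem_cons_of_mem hφ)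
    obtain ⟨k, hk⟩ := (hs ψ (Multiset.mem_cons_self _ _)).ip_xi β
    refine ⟨k + m, ?_⟩
    rw [Multiset.sum_cons, ← ipL_apply, map_add, LinearMap.add_apply, ipL_apply, ipL_apply, hm, hk]
    push_cast
    rfl

theorem ip_sum_irr {G : Type} [Group G] [Fintype G] {s : Multiset (G → ℂ)}
    (hs : ∀ ψ ∈ s, IsIrr ψ) {φ : G → ℂ} (hφ : IsIrr φ) :
    ∃ m : ℕ, ip s.sum φ = m ∧ (φ ∈ s → m ≠ 0) := by
  induction s using Multiset.induction_on with
  | empty => exact ⟨0, by simp [ip], by simp⟩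
  | cons ψ s ih =>
    obtain ⟨m, hm, hm'⟩ := ih fun φ hφ => hs φ (Multiset.mem_cons_of_mem hφ)
    rw [Multiset.sum_cons, ← ipL_apply, map_add, LinearMap.add_apply, ipL_apply, ipL_apply, hm,
      (hs ψ (Multiset.mem_cons_self _ _)).ip_eq hφ]
    by_cases h : ψ = φ
    · exact ⟨1 + m, by simp [h], fun _ => by omega⟩
    · refine ⟨m, by simp [h], fun h1 => hm' ?_⟩
      exact (Multiset.mem_cons.1 h1).resolve_left fun e => h e.symm

theorem Usub_le (l : Fin n → ℕ) : (Usub Ω l).toSubmodule ≤ (Wsub Ω (fs l)).toSubmodule :=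
  fun _ hv => hv.1

theorem exists_char_of_le {G V : Type} [Group G] [Fintype G] [AddCommGroup V] [Module ℂ V]
    [FiniteDimensional ℂ V] {ρ : Representation ℂ G V} {S T : Subrepresentation ρ}
    (h : S.toSubmodule ≤ T.toSubmodule) : ∃ s : Multiset (G → ℂ), (∀ ψ ∈ s, IsIrr ψ) ∧
      T.toRepresentation.character = S.toRepresentation.character + s.sum := by
  let S' : Subrepresentation T.toRepresentation :=
    ⟨S.toSubmodule.comap T.toSubmodule.subtype, fun g _ hv => S.apply_mem_toSubmodule g hv⟩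
  obtain ⟨C, hC⟩ := exists_compl (V := T.toSubmodule) S'
  obtain ⟨s, hs, e⟩ := char_decomp (V := C.toSubmodule) C.toRepresentation
  refine ⟨s, hs, ?_⟩
  rw [char_add (V := T.toSubmodule) hC, e]
  congr 1
  exact Representation.char_iso (V := S'.toSubmodule) (Representation.Equiv.mk
    (Submodule.comapSubtypeEquivOfLe h) fun _ => rfl)

theorem exists_xi_eq (l : Fin n → ℕ) : ∃ s : Multiset (Perm Ω → ℂ), (∀ ψ ∈ s, IsIrr ψ) ∧
    xi Ω (fs l) = (Usub Ω l).toRepresentation.character + s.sum := by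
  rw [← char_Wsub]
  exact exists_char_of_le (Usub_le l)

theorem fixS_Usub {l : Fin n → ℕ} {w' : Ω → Fin n} (h : toLex (fs l) < toLex (cont w')) :
    fixS (Usub Ω l).toRepresentation (stab w') = ⊥ := by
  classical
  rw [eq_bot_iff]
  intro v hv
  have h1 : ∀ g ∈ stab w', ∀ w, v.1 (w ∘ g) = v.1 w := fun g hg w =>
    congrFun (congrArg Subtype.val (mem_fixS.1 hv g hg)) w
  refine Subtype.ext (funext fun w => ?_)
  have h2 := v.2.2 w' h w
  rw [sumH, Finset.sum_congr rfl fun g hg => h1 g (Finset.mem_filter.1 hg).2 w,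
    Finset.sum_const, nsmul_eq_mul, mul_eq_zero] at h2
  refine h2.resolve_left (Nat.cast_ne_zero.2 (Finset.card_ne_zero.2 ⟨1, ?_⟩))
  simp

theorem Usub_ne_bot {l : Fin n → ℕ} (hl : l ∈ par n (Fintype.card Ω)) :
    (Usub Ω l).toSubmodule ≠ ⊥ := by
  obtain ⟨V, _, _, _, τ, hτ, e⟩ := chi_irr hl
  have h1 := ip_chi_xi (mem_par.1 hl).2 (fs l)
  rw [coeff_schur_self (mem_par.1 hl).1, ip_comm, e, ← char_Wsub, ip_char] at h1
  have h2 : 0 < Module.finrank ℂ
      (Representation.IntertwiningMap τ (Wsub Ω (fs l)).toRepresentation) := by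
    have : Module.finrank ℂ
      (Representation.IntertwiningMap τ (Wsub Ω (fs l)).toRepresentation) = 1 := by
      exact_mod_cast h1
    omega
  obtain ⟨f, hf⟩ := (Module.finrank_pos_iff_exists_ne_zero (R := ℂ)
    (M := Representation.IntertwiningMap τ (Wsub Ω (fs l)).toRepresentation)).1 h2
  obtain ⟨x, hx⟩ : ∃ x, f x ≠ 0 := by
    by_contra hc
    push Not at hc
    exact hf (DFunLike.ext _ _ hc)
  refine (Submodule.ne_bot_iff _).2 ⟨(f x).1, ⟨(f x).2, fun w' hw' w => ?_⟩,
    fun h => hx (Subtype.ext h)⟩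
  have h3 := ip_xi_eq τ w'
  rw [← e, ip_chi_xi (mem_par.1 hl).2] at h3
  have h4 : coeff (cont w') (schur n l) = 0 := by
    by_contra hc
    exact absurd (le_of_coeff_schur (mem_par.1 hl).1 hc) (not_le.2 hw')
  rw [h4] at h3
  have h5 : fixS τ (stab w') = ⊥ := Submodule.finrank_eq_zero.1 (by exact_mod_cast h3.symm)
  have h6 : sumH (stab w') (fun h => τ h x) ∈ fixS τ (stab w') := by
    refine mem_fixS.2 fun k hk => ?_
    simp only [sumH, map_sum]
    refine Finset.sum_nbij' (fun h => k * h) (fun h => k⁻¹ * h) ?_ ?_ ?_ ?_ ?_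
    · intro h hh
      simp only [Finset.mem_filter, Finset.mem_univ, true_and] at hh ⊢
      exact mul_mem hk hh
    · intro h hh
      simp only [Finset.mem_filter, Finset.mem_univ, true_and] at hh ⊢
      exact mul_mem (inv_mem hk) hh
    · intro h _
      simp
    · intro h _
      simp
    · intro h _
      simp
  rw [h5, Submodule.mem_bot] at h6
  have h7 := congrArg (fun y => (f y).1 w) h6
  simp only [sumH, map_sum, map_zero, f.isIntertwining, Submodule.coe_sum, Finset.sum_apply] at h7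
  exact h7

theorem char_Usub {l : Fin n → ℕ} (hl : Antitone l) :
    (Usub Ω l).toRepresentation.character = chi Ω l := by
  by_cases hs : ∑ i, l i = Fintype.card Ω
  swap
  · have h1 : (Usub Ω l).toSubmodule = ⊥ := by
      rw [eq_bot_iff]
      intro v hv
      refine funext fun w => hv.1 w fun h => hs ?_
      rw [← sum_cont w, h]
      rfl
    have : Subsingleton (Usub Ω l).toSubmodule := by
      rw [h1]
      infer_instance
    funext g
    rw [chi, mult_eq_zero_of_homog (pg_homog g) hs, Representation.character,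
      Subsingleton.elim ((Usub Ω l).toRepresentation g) 0, map_zero, Int.cast_zero]
  have hp : l ∈ par n (Fintype.card Ω) := mem_par.2 ⟨hl, hs⟩
  obtain ⟨s, hs1, e⟩ := char_decomp (Usub Ω l).toRepresentation
  obtain ⟨t, ht1, e'⟩ := exists_xi_eq (Ω := Ω) l
  have key : ∀ ψ ∈ s, ψ = chi Ω l := by
    intro ψ hψ
    obtain ⟨m, hm, hm'⟩ := ip_sum_irr hs1 (hs1 ψ hψ)
    obtain ⟨k, hk, -⟩ := ip_sum_irr ht1 (hs1 ψ hψ)
    have h1 : ip ψ (xi Ω (fs l)) ≠ 0 := by
      rw [ip_comm, e', e, ← ipL_apply, map_add, LinearMap.add_apply, ipL_apply, ipL_apply, hm, hk]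
      have := hm' hψ
      exact_mod_cast (by omega : m + k ≠ 0)
    obtain ⟨ν, hν, h2, rfl⟩ := eq_chi_of_ip (hs1 ψ hψ) h1
    rcases (le_of_coeff_schur (mem_par.1 hν).1 h2).eq_or_lt with h3 | h3
    · rw [fs_injective (toLex.injective h3)]
    exfalso
    obtain ⟨w', hw'⟩ := exists_cont (mem_par.1 hν).2
    have h4 := ip_xi_eq (Usub Ω l).toRepresentation w'
    rw [fixS_Usub (by rwa [hw']), finrank_bot, e, hw', ← Multiset.cons_erase hψ,
      Multiset.sum_cons, ← ipL_apply, map_add, LinearMap.add_apply, ipL_apply, ipL_apply,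
      ip_chi_xi (mem_par.1 hν).2, coeff_schur_self (mem_par.1 hν).1] at h4
    obtain ⟨j, hj⟩ := ip_sum_nat (s := s.erase (chi Ω ν))
      (fun φ hφ => hs1 φ (Multiset.mem_of_mem_erase hφ)) (fs ν)
    rw [hj] at h4
    have : 1 + j = 0 := by exact_mod_cast h4
    omega
  have h1 : s.sum = (Multiset.card s : ℂ) • chi Ω l := by
    rw [Multiset.eq_replicate_card.2 key, Multiset.sum_replicate, Multiset.card_replicate,
      Nat.cast_smul_eq_nsmul]
  obtain ⟨k, hk, -⟩ := ip_sum_irr ht1 (chi_irr hp)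
  have h2 := ip_chi_xi hs (fs l)
  rw [coeff_schur_self hl, ip_comm, e', e, h1, ← ipL_apply, map_add, map_smul,
    LinearMap.add_apply, LinearMap.smul_apply, ipL_apply, ipL_apply, hk, ip_chi_self hp,
    smul_eq_mul, mul_one] at h2
  have h3 : Multiset.card s + k = 1 := by exact_mod_cast h2
  have h4 : Multiset.card s ≠ 0 := by
    intro h0
    have h5 := congrFun e 1
    rw [h1, h0, Representation.char_one] at h5
    exact Usub_ne_bot hp (Submodule.finrank_eq_zero.1 (by simpa using h5))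
  rw [e, h1, (by omega : Multiset.card s = 1), Nat.cast_one, one_smul]

end Vale.Agent.P181.R
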