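import Vale.Agent.P181.R.Pol

/-! The wreath product: orbits on words and the plethysm.

PLAN.  blks_surj: enumerate the outer multiset by Fin a and each inner one by Fin d (a multiset of
cardinality k is univ.val.map f for some f : Fin k → _; `List.ofFn`, `Quotient.inductionOn`,
`Fin.univ_val_map`).  blks_eq_iff: exists_perm_of_map_eq for the outer multiset gives σ, then for every
row gives τ i; h = e.trans ((Equiv.prodShear σ τ).trans e.symm); conversely blk e (w ∘ h) i =
blk e w (σ i) (`Multiset.map_univ_val_equiv`).  wreath: polya with q = blks e and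
φ z = (z.1.map (smon n d)).prod; pl n a d = ∑ z, φ z by `map_sum`, `map_multiset_prod`, `aeval_X`;
monomial_cont, `Equiv.prod_comp`, `Fintype.prod_prod_type`.
sumH_wr: (σ, τ) ↦ shear e σ τ is a bijection onto wr e when d > 0 (`Finset.sum_bij`,
`Finset.sum_product'`). -/

namespace Vale.Agent.P181.R

open MvPolynomial Equiv

variable {Ω : Type} [Fintype Ω] [DecidableEq Ω] {n a d : ℕ}

/-- The element of the wreath product with row permutation `σ` and permutations `τ i` in the rows. -/
def shear {Ω : Type} (e : Ω ≃ Fin a × Fin d) (σ : Perm (Fin a)) (τ : Fin a → Perm (Fin d)) :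
    Perm Ω := e.trans ((Equiv.prodShear σ τ).trans e.symm)

theorem shear_apply {Ω : Type} (e : Ω ≃ Fin a × Fin d) (σ : Perm (Fin a))
    (τ : Fin a → Perm (Fin d)) (i : Fin a) (j : Fin d) :
    shear e σ τ (e.symm (i, j)) = e.symm (σ i, τ i j) := by
  simp [shear]

namespace Wre

theorem enum {A : Type*} {k : ℕ} (z : Sym A k) :
    ∃ F : Fin k → A, Finset.univ.val.map F = z.1 := by
  obtain ⟨m, rfl⟩ := z
  induction m using Quotient.inductionOn with
  | h l => exact ⟨l.get, (Fin.univ_val_map _).trans (congrArg _ (List.ofFn_get l))⟩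

theorem map_comp {A B : Type*} [Fintype B] (F : B → A) (σ : Perm B) :
    Finset.univ.val.map (fun i => F (σ i)) = Finset.univ.val.map F := by
  conv_rhs => rw [← Multiset.map_univ_val_equiv σ, Multiset.map_map]
  rfl

end Wre

theorem blks_surj (e : Ω ≃ Fin a × Fin d) : Function.Surjective (blks (n := n) e) := by
  intro z
  obtain ⟨F, hF⟩ := Wre.enum z
  choose G hG using fun i => Wre.enum (F i)
  refine ⟨fun p => G (e p).1 (e p).2, Subtype.ext ?_⟩
  refine (congrArg (Finset.univ.val.map ·) (funext fun i => ?_)).trans hF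
  apply Subtype.ext
  simpa only [blk, Equiv.apply_symm_apply] using hG i

theorem blks_eq_iff (e : Ω ≃ Fin a × Fin d) (w w' : Ω → Fin n) :
    blks e w = blks e w' ↔ ∃ h ∈ wr e, w' = w ∘ h := by
  constructor
  · intro h
    obtain ⟨σ, hσ⟩ := exists_perm_of_map_eq (blk e w) (blk e w') (congrArg Subtype.val h)
    choose τ hτ using fun i => exists_perm_of_map_eq (fun j => w (e.symm (σ i, j)))
      (fun j => w' (e.symm (i, j))) (congrArg Subtype.val (congrFun hσ i).symm)
    refine ⟨shear e σ τ, ⟨σ, τ, shear_apply e σ τ⟩, funext fun p => ?_⟩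
    obtain ⟨⟨i, j⟩, rfl⟩ := e.symm.surjective p
    rw [Function.comp_apply, shear_apply]
    exact congrFun (hτ i) j
  · rintro ⟨h, ⟨σ, τ, hh⟩, rfl⟩
    refine Subtype.ext ((Wre.map_comp (blk e w) σ).symm.trans
      (Multiset.map_congr rfl fun i _ => ?_))
    apply Subtype.ext
    simp only [blk, Function.comp_apply, hh]
    exact (Wre.map_comp (fun j => w (e.symm (σ i, j))) (τ i)).symm

theorem wreath (e : Ω ≃ Fin a × Fin d) : sumH (wr e) (pg n) = Nat.card (wr e) • pl n a d := by
  rw [polya (wr e) (blks e) (blks_surj e) (blks_eq_iff e) fun z => (z.1.map (smon n d)).prod]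
  · simp only [pl, hsymm, map_sum, map_multiset_prod, Multiset.map_map, Function.comp_def, aeval_X]
  · intro w
    rw [monomial_cont, ← e.symm.prod_comp, Fintype.prod_prod_type]
    simp only [blks, blk, smon, Multiset.map_map, Function.comp_def]
    rfl

theorem sumH_wr {M : Type*} [AddCommMonoid M] (e : Ω ≃ Fin a × Fin d) (hd : 0 < d)
    (F : Perm Ω → M) :
    sumH (wr e) F = ∑ σ : Perm (Fin a), ∑ τ : Fin a → Perm (Fin d), F (shear e σ τ) := by
  classical
  rw [← Fintype.sum_prod_type' fun σ τ => F (shear e σ τ), sumH]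
  refine (Finset.sum_bij (fun x _ => shear e x.1 x.2) (fun x _ => ?_) (fun x _ y _ h => ?_)
    (fun g hg => ?_) fun _ _ => rfl).symm
  · exact Finset.mem_filter.2 ⟨Finset.mem_univ _, x.1, x.2, shear_apply e _ _⟩
  · have h1 : ∀ i j, (x.1 i, x.2 i j) = (y.1 i, y.2 i j) := fun i j =>
      e.symm.injective (by rw [← shear_apply, ← shear_apply, h])
    exact Prod.ext (Equiv.ext fun i => congrArg Prod.fst (h1 i ⟨0, hd⟩))
      (funext fun i => Equiv.ext fun j => congrArg Prod.snd (h1 i j))
  · obtain ⟨σ, τ, h⟩ := (Finset.mem_filter.1 hg).2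
    refine ⟨(σ, τ), Finset.mem_univ _, Equiv.ext fun p => ?_⟩
    obtain ⟨⟨i, j⟩, rfl⟩ := e.symm.surjective p
    rw [shear_apply, h]

theorem stab_le_wr (e : Ω ≃ Fin a × Fin d) : stab (fun p => (e p).1) ≤ wr e := by
  intro g hg
  have h1 : ∀ i j, g (e.symm (i, j)) = e.symm (i, (e (g (e.symm (i, j)))).2) := fun i j => by
    rw [Equiv.eq_symm_apply]
    exact Prod.ext (by simpa using congrFun (mem_stab.1 hg) (e.symm (i, j))) rfl
  refine ⟨1, fun i => Equiv.ofBijective (fun j => (e (g (e.symm (i, j)))).2)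
    (Finite.injective_iff_bijective.1 fun j k h => ?_), h1⟩
  have h2 : g (e.symm (i, j)) = g (e.symm (i, k)) := by
    rw [h1, h1 i k]
    exact congrArg (fun x => e.symm (i, x)) h
  exact congrArg Prod.snd (e.symm.injective (g.injective h2))

end Vale.Agent.P181.R
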